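import Vale.Agent.P078.Defs

/-! P078: atoms of the Boolean algebra generated by finitely many projections of a MASA -/

namespace Vale.Agent.P078

variable {H : Type*} [NormedAddCommGroup H] [InnerProductSpace ℂ H] [CompleteSpace H]

/-- a MASA is commutative -/
theorem IsMasa.commute {A : VonNeumannAlgebra H} (hA : IsMasa A) {x y : H →L[ℂ] H}
    (hx : x ∈ A) (hy : y ∈ A) : Commute x y := by
  have hy' : y ∈ A.commutant := by rw [hA]; exact hy
  exact VonNeumannAlgebra.mem_commutant_iff.1 hy' x hx

open Classical in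
/-- list version of `atom` -/
noncomputable def latom (A : VonNeumannAlgebra H) (l : List (Pr A)) (s : Finset (Pr A)) :
    H →L[ℂ] H :=
  (l.map fun p => if p ∈ s then p.1 else 1 - p.1).prod

theorem atom_eq_latom (A : VonNeumannAlgebra H) (S s : Finset (Pr A)) :
    atom A S s = latom A S.toList s := rfl

open Classical in
theorem latom_cons (A : VonNeumannAlgebra H) (q : Pr A) (l : List (Pr A)) (s : Finset (Pr A)) :
    latom A (q :: l) s = (if q ∈ s then q.1 else 1 - q.1) * latom A l s := by
  unfold latom
  rw [List.map_cons, List.prod_cons]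

theorem latom_nil (A : VonNeumannAlgebra H) (s : Finset (Pr A)) : latom A [] s = 1 := rfl

open Classical in
theorem factor_mem (A : VonNeumannAlgebra H) (q : Pr A) (s : Finset (Pr A)) :
    (if q ∈ s then q.1 else 1 - q.1) ∈ A ∧
      IsStarProjection (if q ∈ s then q.1 else 1 - q.1) := by
  split_ifs
  · exact q.2
  · exact ⟨sub_mem (one_mem A) q.2.1, q.2.2.one_sub⟩

theorem latom_mem {A : VonNeumannAlgebra H} (hA : IsMasa A) (l : List (Pr A))
    (s : Finset (Pr A)) : latom A l s ∈ A ∧ IsStarProjection (latom A l s) := by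
  classical
  induction l with
  | nil =>
    rw [latom_nil]
    exact ⟨one_mem A, IsStarProjection.one _⟩
  | cons q l ih =>
    have hq := factor_mem A q s
    rw [latom_cons]
    refine ⟨mul_mem hq.1 ih.1, ?_⟩
    exact hq.2.mul ih.2 (hA.commute hq.1 ih.1)

open Classical in
theorem latom_mul {A : VonNeumannAlgebra H} (hA : IsMasa A) (l : List (Pr A))
    (s : Finset (Pr A)) (p : Pr A) (hp : p ∈ l) :
    latom A l s * p.1 = if p ∈ s then latom A l s else 0 := by
  induction l with
  | nil => simp at hp
  | cons q l ih =>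
    rw [latom_cons]
    rcases List.mem_cons.1 hp with h | h
    · subst h
      have hc : latom A l s * p.1 = p.1 * latom A l s := hA.commute (latom_mem hA l s).1 p.2.1
      rw [mul_assoc, hc, ← mul_assoc]
      by_cases hs : p ∈ s
      · rw [if_pos hs, if_pos hs, p.2.2.isIdempotentElem.eq]
      · rw [if_neg hs, if_neg hs, sub_mul, one_mul, p.2.2.isIdempotentElem.eq, sub_self, zero_mul]
    · rw [mul_assoc, ih h]
      split_ifs <;> simp

theorem latom_orth {A : VonNeumannAlgebra H} (hA : IsMasa A) (l : List (Pr A))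
    (s t : Finset (Pr A)) (p : Pr A) (hp : p ∈ l) (hs : p ∈ s) (ht : p ∉ t) :
    latom A l s * latom A l t = 0 := by
  classical
  have h1 := latom_mul hA l s p hp
  have h2 := latom_mul hA l t p hp
  rw [if_pos hs] at h1
  rw [if_neg ht] at h2
  have hc : latom A l t * p.1 = p.1 * latom A l t := hA.commute (latom_mem hA l t).1 p.2.1
  calc latom A l s * latom A l t = (latom A l s * p.1) * latom A l t := by rw [h1]
    _ = latom A l s * (latom A l t * p.1) := by rw [mul_assoc, hc]
    _ = 0 := by rw [h2, mul_zero]

open Classical in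
theorem latom_sum (A : VonNeumannAlgebra H) (l : List (Pr A)) (hl : l.Nodup) :
    ∑ s ∈ l.toFinset.powerset, latom A l s = 1 := by
  induction l with
  | nil => simp [latom_nil]
  | cons q l ih =>
    have hq : q ∉ l := (List.nodup_cons.1 hl).1
    have hl' := (List.nodup_cons.1 hl).2
    have hq' : q ∉ l.toFinset := by simpa using hq
    rw [List.toFinset_cons, Finset.sum_powerset_insert hq']
    have e1 : ∑ t ∈ l.toFinset.powerset, latom A (q :: l) t =
        (1 - q.1) * ∑ t ∈ l.toFinset.powerset, latom A l t := by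
      rw [Finset.mul_sum]
      refine Finset.sum_congr rfl fun t ht => ?_
      have : q ∉ t := fun h => hq' (Finset.mem_powerset.1 ht h)
      rw [latom_cons, if_neg this]
    have e2 : ∑ t ∈ l.toFinset.powerset, latom A (q :: l) (insert q t) =
        q.1 * ∑ t ∈ l.toFinset.powerset, latom A l t := by
      rw [Finset.mul_sum]
      refine Finset.sum_congr rfl fun t ht => ?_
      rw [latom_cons, if_pos (Finset.mem_insert_self q t)]
      congr 1
      unfold latom
      congr 1
      refine List.map_congr_left fun p hp => ?_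
      have hpq : p ≠ q := fun h => hq (h ▸ hp)
      have : p ∈ insert q t ↔ p ∈ t := by simp [Finset.mem_insert, hpq]
      by_cases h : p ∈ t
      · rw [if_pos h, if_pos (this.2 h)]
      · rw [if_neg h, if_neg (fun h' => h (this.1 h'))]
    rw [e1, e2, ih hl', mul_one, mul_one, sub_add_cancel]

open Classical in
/-- **the atoms of finitely many projections of a MASA** -/
theorem atom_facts {A : VonNeumannAlgebra H} (hA : IsMasa A) (S : Finset (Pr A)) :
    (∀ s, atom A S s ∈ A ∧ IsStarProjection (atom A S s)) ∧
    (∀ s ⊆ S, ∀ t ⊆ S, s ≠ t → atom A S s * atom A S t = 0) ∧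
    (∑ s ∈ S.powerset, atom A S s = 1) ∧
    (∀ p ∈ S, ∀ s ⊆ S, atom A S s * p.1 = if p ∈ s then atom A S s else 0) := by
  refine ⟨fun s => latom_mem hA _ s, ?_, ?_, ?_⟩
  · intro s hs t ht hst
    have hA' : ∀ x ∈ A, ∀ y ∈ A, x * y = y * x := fun x hx y hy => hA.commute hx hy
    have hex : (∃ p ∈ s, p ∉ t) ∨ (∃ p ∈ t, p ∉ s) := by
      by_contra hcon
      push Not at hcon
      exact hst (Finset.Subset.antisymm hcon.1 hcon.2)
    rcases hex with ⟨p, h1, h2⟩ | ⟨p, h1, h2⟩
    · exact latom_orth hA _ s t p (Finset.mem_toList.2 (hs h1)) h1 h2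
    · rw [atom_eq_latom, atom_eq_latom, hA' _ (latom_mem hA _ s).1 _ (latom_mem hA _ t).1]
      exact latom_orth hA _ t s p (Finset.mem_toList.2 (ht h1)) h1 h2
  · have := latom_sum A S.toList S.nodup_toList
    rw [Finset.toList_toFinset] at this
    exact this
  · intro p hp s _
    exact latom_mul hA _ s p (Finset.mem_toList.2 hp)

end Vale.Agent.P078
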