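import Vale.Agent.P078.Defs

namespace Vale.Agent.P078

open Finset

section comb
variable {ι : Type*} [Fintype ι] [DecidableEq ι] {r : ℕ}

/-- centred indicator of equal colours -/
noncomputable def wc (c : ι → Fin r) (i j : ι) : ℝ := (if c i = c j then 1 else 0) - 1 / r

theorem wc_symm (c : ι → Fin r) (i j : ι) : wc c i j = wc c j i := by
  unfold wc
  by_cases h : c i = c j
  · rw [if_pos h, if_pos h.symm]
  · rw [if_neg h, if_neg (fun h' => h h'.symm)]

theorem abs_wc_le (c : ι → Fin r) (i j : ι) : |wc c i j| ≤ 1 := by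
  unfold wc
  have h0 : (0 : ℝ) ≤ 1 / r := by positivity
  have h1 : (1 : ℝ) / r ≤ 1 := by
    rcases Nat.eq_zero_or_pos r with h | h
    · subst h; simp
    · rw [div_le_one (by exact_mod_cast h)]; exact_mod_cast h
  rw [abs_le]
  split_ifs <;> constructor <;> linarith

theorem sum_split (m : ι) (f : (ι → Fin r) → ℝ)
    (h : ∀ c : ι → Fin r, ∑ v, f (Function.update c m v) = 0) : ∑ c, f c = 0 := by
  classical
  rw [← (Equiv.funSplitAt m (Fin r)).symm.sum_comp, Fintype.sum_prod_type_right]
  refine Finset.sum_eq_zero fun rest _ => ?_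
  rcases isEmpty_or_nonempty (Fin r) with he | ⟨⟨v0⟩⟩
  · simp
  · have h1 := h ((Equiv.funSplitAt m (Fin r)).symm (v0, rest))
    rw [← h1]
    refine Finset.sum_congr rfl fun v _ => ?_
    congr 1
    funext j
    by_cases hj : j = m
    · subst hj; simp
    · simp [Function.update_of_ne hj, hj]

theorem sum_wc_update (c : ι → Fin r) {m o : ι} (h : m ≠ o) :
    ∑ v, wc (Function.update c m v) m o = 0 := by
  have h1 : ∀ v, wc (Function.update c m v) m o = (if v = c o then 1 else 0) - 1 / r := by
    intro v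
    unfold wc
    rw [Function.update_self, Function.update_of_ne h.symm]
  simp only [h1]
  rw [Finset.sum_sub_distrib]
  have hr : 0 < r := (c o).pos
  have hr' : (r : ℝ) ≠ 0 := by positivity
  simp [hr']

theorem cov_zero {i j k l : ι} (hij : i ≠ j) (hkl : k ≠ l) (h1 : ¬ (k = i ∧ l = j))
    (h2 : ¬ (k = j ∧ l = i)) : ∑ c : ι → Fin r, wc c i j * wc c k l = 0 := by
  -- one of `i`, `j` is not in `{k, l}`
  have aux : ∀ m o : ι, m ≠ o → m ≠ k → m ≠ l →
      ∑ c : ι → Fin r, wc c m o * wc c k l = 0 := by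
    intro m o hmo hmk hml
    refine sum_split m _ fun c => ?_
    have h3 : ∀ v, wc (Function.update c m v) k l = wc c k l := by
      intro v
      unfold wc
      rw [Function.update_of_ne hmk.symm, Function.update_of_ne hml.symm]
    simp only [h3]
    rw [← Finset.sum_mul, sum_wc_update c hmo, zero_mul]
  by_cases hi : i = k ∨ i = l
  · by_cases hj : j = k ∨ j = l
    · exfalso
      rcases hi with hi | hi <;> rcases hj with hj | hj
      · exact hij (hi.trans hj.symm)
      · exact h1 ⟨hi.symm, hj.symm⟩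
      · exact h2 ⟨hj.symm, hi.symm⟩
      · exact hij (hi.trans hj.symm)
    · push Not at hj
      have := aux j i hij.symm hj.1 hj.2
      simpa only [wc_symm _ j i] using this
  · push Not at hi
    exact aux i j hij hi.1 hi.2

/-- second moment bound -/
theorem second_moment (Y : ι → ι → ℝ) :
    ∑ c : ι → Fin r, (∑ i, ∑ j, if i = j then 0 else wc c i j * Y i j) ^ 2 ≤
      2 * (Fintype.card (ι → Fin r)) * ∑ i, ∑ j, Y i j ^ 2 := by
  have e1 : ∀ c : ι → Fin r, (∑ i, ∑ j, if i = j then 0 else wc c i j * Y i j) ^ 2 =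
      ∑ i, ∑ j, ∑ k, ∑ l, (if i = j then 0 else wc c i j * Y i j) *
        (if k = l then 0 else wc c k l * Y k l) := by
    intro c
    rw [pow_two, Finset.sum_mul]
    refine Finset.sum_congr rfl fun i _ => ?_
    rw [Finset.sum_mul]
    refine Finset.sum_congr rfl fun j _ => ?_
    rw [Finset.mul_sum]
    refine Finset.sum_congr rfl fun k _ => ?_
    rw [Finset.mul_sum]
  simp only [e1]
  rw [Finset.sum_comm]
  have e2 : ∀ i j : ι, ∑ c : ι → Fin r, ∑ k, ∑ l, (if i = j then 0 else wc c i j * Y i j) *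
        (if k = l then 0 else wc c k l * Y k l) ≤
        (Fintype.card (ι → Fin r)) * (Y i j ^ 2 + |Y i j * Y j i|) := by
    intro i j
    by_cases hij : i = j
    · simp only [hij, if_true, zero_mul, Finset.sum_const_zero]
      positivity
    simp only [hij, if_false]
    rw [Finset.sum_comm]
    have e3 : ∀ k : ι, ∑ c : ι → Fin r, ∑ l, wc c i j * Y i j *
        (if k = l then 0 else wc c k l * Y k l) =
        ∑ l, (if k = l then 0 else (∑ c : ι → Fin r, wc c i j * wc c k l) * (Y i j * Y k l)) := by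
      intro k
      rw [Finset.sum_comm]
      refine Finset.sum_congr rfl fun l _ => ?_
      by_cases hkl : k = l
      · simp [hkl]
      · simp only [hkl, if_false]
        rw [Finset.sum_mul]
        exact Finset.sum_congr rfl fun c _ => by ring
    simp only [e3]
    -- only (i,j) and (j,i) contribute
    have hb : ∀ k l : ι, |∑ c : ι → Fin r, wc c i j * wc c k l| ≤ Fintype.card (ι → Fin r) := by
      intro k l
      refine (Finset.abs_sum_le_sum_abs _ _).trans ?_
      refine (Finset.sum_le_sum fun c _ => (?_ : _ ≤ (1 : ℝ))).trans ?_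
      · rw [abs_mul]
        exact mul_le_one₀ (abs_wc_le _ _ _) (abs_nonneg _) (abs_wc_le _ _ _)
      · simp
    have e4 : ∀ k l : ι, (if k = l then 0 else
        (∑ c : ι → Fin r, wc c i j * wc c k l) * (Y i j * Y k l)) ≤
        (if k = i ∧ l = j then (Fintype.card (ι → Fin r) : ℝ) * Y i j ^ 2 else 0) +
        (if k = j ∧ l = i then (Fintype.card (ι → Fin r) : ℝ) * |Y i j * Y j i| else 0) := by
      intro k l
      by_cases hkl : k = l
      · rw [if_pos hkl]; positivity
      rw [if_neg hkl]
      by_cases h1 : k = i ∧ l = j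
      · have h2 : ¬ (k = j ∧ l = i) := fun h => hij (h1.1.symm.trans h.1)
        rw [if_pos h1, if_neg h2, add_zero, h1.1, h1.2]
        have := (abs_le.1 (hb i j)).2
        nlinarith [sq_nonneg (Y i j)]
      · rw [if_neg h1, zero_add]
        by_cases h2 : k = j ∧ l = i
        · rw [if_pos h2, h2.1, h2.2]
          refine (le_abs_self _).trans ?_
          rw [abs_mul]
          exact mul_le_mul_of_nonneg_right (hb j i) (abs_nonneg _)
        · rw [if_neg h2, cov_zero hij hkl h1 h2, zero_mul]
    refine (Finset.sum_le_sum fun k _ => Finset.sum_le_sum fun l _ => e4 k l).trans ?_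
    simp only [Finset.sum_add_distrib]
    have s1 : ∑ k : ι, ∑ l : ι, (if k = i ∧ l = j then
        (Fintype.card (ι → Fin r) : ℝ) * Y i j ^ 2 else 0) =
        (Fintype.card (ι → Fin r) : ℝ) * Y i j ^ 2 := by
      rw [Finset.sum_eq_single i, Finset.sum_eq_single j] <;> simp_all
    have s2 : ∑ k : ι, ∑ l : ι, (if k = j ∧ l = i then
        (Fintype.card (ι → Fin r) : ℝ) * |Y i j * Y j i| else 0) =
        (Fintype.card (ι → Fin r) : ℝ) * |Y i j * Y j i| := by
      rw [Finset.sum_eq_single j, Finset.sum_eq_single i] <;> simp_all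
    rw [s1, s2]
    linarith
  have e5 : ∀ i : ι, ∑ c : ι → Fin r, ∑ j, ∑ k, ∑ l, (if i = j then 0 else wc c i j * Y i j) *
        (if k = l then 0 else wc c k l * Y k l) ≤
        ∑ j, (Fintype.card (ι → Fin r)) * (Y i j ^ 2 + |Y i j * Y j i|) := by
    intro i
    rw [Finset.sum_comm]
    exact Finset.sum_le_sum fun j _ => e2 i j
  refine (Finset.sum_le_sum fun i _ => e5 i).trans ?_
  have e6 : ∀ i j, |Y i j * Y j i| ≤ (Y i j ^ 2 + Y j i ^ 2) / 2 := by
    intro i j
    rw [abs_le]
    constructor <;> nlinarith [sq_nonneg (Y i j + Y j i), sq_nonneg (Y i j - Y j i)]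
  have e7 : ∑ i, ∑ j, (Fintype.card (ι → Fin r) : ℝ) * (Y i j ^ 2 + |Y i j * Y j i|) ≤
      ∑ i, ∑ j, ((Fintype.card (ι → Fin r) : ℝ) * (3 / 2 * Y i j ^ 2) +
        (Fintype.card (ι → Fin r) : ℝ) * (1 / 2 * Y j i ^ 2)) := by
    refine Finset.sum_le_sum fun i _ => Finset.sum_le_sum fun j _ => ?_
    rw [← mul_add]
    refine mul_le_mul_of_nonneg_left ?_ (by positivity)
    linarith [e6 i j]
  refine e7.trans (le_of_eq ?_)
  simp only [Finset.sum_add_distrib, ← Finset.mul_sum]
  rw [Finset.sum_comm (f := fun i j => Y j i ^ 2)]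
  ring

end comb

end Vale.Agent.P078
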