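import Mathlib

/-! P078: so-paving over a maximal abelian self-adjoint subalgebra of `B(H)` -/

namespace Vale.Agent.P078

variable {H : Type*} [NormedAddCommGroup H] [InnerProductSpace ℂ H] [CompleteSpace H]

/-- `A` is a maximal abelian self-adjoint subalgebra of `B(H)`: a von Neumann algebra equal to
its own commutant. -/
def IsMasa (A : VonNeumannAlgebra H) : Prop := A.commutant = A

/-- `A` is diffuse: it has no minimal projections. -/
def IsDiffuse (A : VonNeumannAlgebra H) : Prop :=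
  ∀ p ∈ A, IsStarProjection p → p ≠ 0 →
    ∃ e ∈ A, IsStarProjection e ∧ e ≠ 0 ∧ e ≠ p ∧ p * e = e

/-- A partition in `A`: a finite family of mutually orthogonal projections of `A` with sum `1`
(zeros allowed). -/
structure IsPartition (A : VonNeumannAlgebra H) {ι : Type*} [Fintype ι] (p : ι → H →L[ℂ] H) :
    Prop where
  mem : ∀ i, p i ∈ A
  proj : ∀ i, IsStarProjection (p i)
  orth : ∀ i j, i ≠ j → p i * p j = 0
  sum : ∑ i, p i = 1

/-- The pinching `S_P(x) = ∑ p_i x p_i`. -/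
def pinch {ι : Type*} [Fintype ι] (p : ι → H →L[ℂ] H) (x : H →L[ℂ] H) : H →L[ℂ] H :=
  ∑ i, p i * x * p i

/-- `x` is `(ε, r)` so-pavable over `A` in `M = B(H)`. -/
def SoPavable (A : VonNeumannAlgebra H) (ε : ℝ) (r : ℕ) (x : H →L[ℂ] H) : Prop :=
  ∀ (F : Finset H) (δ : ℝ), 0 < δ →
    ∃ p : Fin r → H →L[ℂ] H, IsPartition A p ∧
    ∃ a ∈ A, IsSelfAdjoint a ∧ ‖a‖ ≤ ‖x‖ ∧
    ∃ q : H →L[ℂ] H, IsStarProjection q ∧ (∀ ξ ∈ F, ‖(1 - q) ξ‖ < δ) ∧
      ‖q * (pinch p x - a) * q‖ ≤ ε * ‖x‖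

/-- projections of `A` -/
abbrev Pr (A : VonNeumannAlgebra H) := {p : H →L[ℂ] H // p ∈ A ∧ IsStarProjection p}

open Classical in
/-- atoms of the Boolean algebra generated by the finite set `S` of projections -/
noncomputable def atom (A : VonNeumannAlgebra H) (S : Finset (Pr A)) (s : Finset (Pr A)) :
    H →L[ℂ] H :=
  (S.toList.map fun p => if p ∈ s then p.1 else 1 - p.1).prod

end Vale.Agent.P078
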