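import Vale.Agent.P078.Atom

/-! P078 (K1): in a diffuse MASA the atoms of fine finite Boolean algebras are small -/

namespace Vale.Agent.P078

open Filter Topology ContinuousLinearMap

variable {H : Type*} [NormedAddCommGroup H] [InnerProductSpace ℂ H] [CompleteSpace H]

namespace Fine

theorem norm_proj_le {e : H →L[ℂ] H} (he : IsStarProjection e) (x : H) : ‖e x‖ ≤ ‖x‖ := by
  obtain ⟨U, hU, rfl⟩ := isStarProjection_iff_eq_starProjection.1 he
  exact U.norm_starProjection_apply_le x

/-- good operators: small on all atoms of fine Boolean algebras -/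
def Good (A : VonNeumannAlgebra H) (K : Finset H) (η : ℝ) (p : H →L[ℂ] H) : Prop :=
  ∃ S0 : Finset (Pr A), ∀ S, S0 ⊆ S → ∀ s ⊆ S, ∀ ξ ∈ K, ‖atom A S s (p ξ)‖ ^ 2 ≤ η

variable {A : VonNeumannAlgebra H} {K : Finset H} {η : ℝ}

theorem good_of_small (hA : IsMasa A) {p : H →L[ℂ] H} (h : ∀ ξ ∈ K, ‖p ξ‖ ^ 2 ≤ η) :
    Good A K η p := by
  classical
  refine ⟨∅, fun S _ s _ ξ hξ => ?_⟩
  have he := ((atom_facts hA S).1 s).2
  exact (pow_le_pow_left₀ (norm_nonneg _) (norm_proj_le he _) 2).trans (h ξ hξ)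

theorem good_add (hA : IsMasa A) (hη : 0 ≤ η) {p q : H →L[ℂ] H} (hpA : p ∈ A)
    (hp : IsStarProjection p) (hqA : q ∈ A) (hq : IsStarProjection q) (hpq : p * q = 0)
    (gp : Good A K η p) (gq : Good A K η q) : Good A K η (p + q) := by
  classical
  obtain ⟨S1, h1⟩ := gp
  obtain ⟨S2, h2⟩ := gq
  refine ⟨S1 ∪ S2 ∪ {⟨p, hpA, hp⟩, ⟨q, hqA, hq⟩}, fun S hS s hs ξ hξ => ?_⟩
  have hS1 : S1 ⊆ S := fun x hx => hS (by simp [hx])
  have hS2 : S2 ⊆ S := fun x hx => hS (by simp [hx])
  have hpS : (⟨p, hpA, hp⟩ : Pr A) ∈ S := hS (by simp)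
  have hqS : (⟨q, hqA, hq⟩ : Pr A) ∈ S := hS (by simp)
  have ep := (atom_facts hA S).2.2.2 _ hpS s hs
  have eq' := (atom_facts hA S).2.2.2 _ hqS s hs
  simp only at ep eq'
  have hsplit : atom A S s ((p + q) ξ) = (atom A S s * p) ξ + (atom A S s * q) ξ := by
    simp [mul_apply_eq_comp]
  by_cases hps : (⟨p, hpA, hp⟩ : Pr A) ∈ s
  · rw [if_pos hps] at ep
    by_cases hqs : (⟨q, hqA, hq⟩ : Pr A) ∈ s
    · rw [if_pos hqs] at eq'
      have h0 : atom A S s = 0 := by
        calc atom A S s = atom A S s * q := eq'.symm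
          _ = (atom A S s * p) * q := by rw [ep]
          _ = 0 := by rw [mul_assoc, hpq, mul_zero]
      rw [h0]
      simpa using hη
    · rw [if_neg hqs] at eq'
      rw [hsplit, eq']
      simpa [mul_apply_eq_comp] using h1 S hS1 s hs ξ hξ
  · rw [if_neg hps] at ep
    rw [hsplit, ep]
    simpa [mul_apply_eq_comp] using h2 S hS2 s hs ξ hξ

theorem mem_range_iff {p : H →L[ℂ] H} (hp : IsStarProjection p) (x : H) :
    x ∈ p.range ↔ p x = x := by
  constructor
  · rintro ⟨y, rfl⟩
    have := congrArg (fun T : H →L[ℂ] H => T y) hp.isIdempotentElem.eq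
    simpa [mul_apply_eq_comp] using this
  · intro h
    exact ⟨x, h⟩

theorem isClosed_range {p : H →L[ℂ] H} (hp : IsStarProjection p) :
    IsClosed (p.range : Set H) := by
  have : (p.range : Set H) = {x | p x = x} := by
    ext x
    exact mem_range_iff hp x
  rw [this]
  exact isClosed_eq p.continuous continuous_id

theorem mul_eq_of_range_le {p q : H →L[ℂ] H} (hq : IsStarProjection q)
    (h : p.range ≤ q.range) : q * p = p := by
  ext x
  exact (mem_range_iff hq (p x)).1 (h ⟨x, rfl⟩)

theorem mul_eq_of_range_le' {p q : H →L[ℂ] H} (hp : IsStarProjection p) (hq : IsStarProjection q)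
    (h : p.range ≤ q.range) : p * q = p := by
  have := congrArg star (mul_eq_of_range_le hq h)
  rwa [star_mul, hp.isSelfAdjoint.star_eq, hq.isSelfAdjoint.star_eq] at this

theorem eq_of_range {p q : H →L[ℂ] H} (hp : IsStarProjection p) (hq : IsStarProjection q)
    (h : p.range ≤ q.range) (h' : q.range ≤ p.range) : p = q := by
  rw [← mul_eq_of_range_le hp h', mul_eq_of_range_le' hp hq h]

theorem invt_of_mem {p y : H →L[ℂ] H} (hA : IsMasa A) (hpA : p ∈ A) (hp : IsStarProjection p)
    (hy : y ∈ A) {x : H} (hx : x ∈ p.range) : y x ∈ p.range := by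
  have hy' : y ∈ A.commutant := by rw [hA]; exact hy
  have h1 := (VonNeumannAlgebra.mem_commutant_iff.1 hy') p hpA
  rw [mem_range_iff hp] at hx ⊢
  have h2 := congrArg (fun T : H →L[ℂ] H => T x) h1
  simp only [mul_apply_eq_comp] at h2
  rw [h2, hx]

/-- limit of a chain of projections of `A` -/
theorem exists_inf (hA : IsMasa A) (c : Set (Pr A)) (hne : c.Nonempty)
    (hc : ∀ p ∈ c, ∀ q ∈ c, p.1.range ≤ q.1.range ∨ q.1.range ≤ p.1.range) (K : Finset H)
    {δ : ℝ} (hδ : 0 < δ) :
    ∃ P ∈ A, IsStarProjection P ∧ (∀ p ∈ c, P.range ≤ p.1.range) ∧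
      ∃ p ∈ c, ∀ ξ ∈ K, ‖(p.1 - P) ξ‖ < δ := by
  set W : Submodule ℂ H := ⨅ p ∈ c, p.1.range with hW
  have hWc : IsClosed (W : Set H) := by
    have : (W : Set H) = ⋂ p ∈ c, (p.1.range : Set H) := by
      rw [hW]
      simp [Submodule.coe_iInf]
    rw [this]
    exact isClosed_biInter fun p _ => isClosed_range p.2.2
  have : CompleteSpace W := hWc.completeSpace_coe
  have hle : ∀ p ∈ c, W ≤ p.1.range := fun p hp => iInf₂_le p hp
  refine ⟨W.starProjection, ?_, isStarProjection_starProjection, ?_, ?_⟩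
  · refine (VonNeumannAlgebra.IsStarProjection.mem_iff isStarProjection_starProjection A).2
      fun y hy => ?_
    rw [hA] at hy
    rw [Submodule.range_starProjection, Module.End.mem_invtSubmodule_iff_forall_mem_of_mem]
    intro x hx
    simp only [hW, Submodule.mem_iInf] at hx ⊢
    exact fun p hp => invt_of_mem hA p.2.1 p.2.2 hy (hx p hp)
  · intro p hp
    rw [Submodule.range_starProjection]
    exact hle p hp
  · -- convergence
    set D : Set (Submodule ℂ H)ᵒᵈ := (fun p : Pr A => OrderDual.toDual p.1.range) '' c with hD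
    have hDne : Nonempty D := by
      obtain ⟨p, hp⟩ := hne
      exact ⟨⟨_, p, hp, rfl⟩⟩
    have hdir : IsDirected D (· ≤ ·) := by
      refine ⟨?_⟩
      rintro ⟨_, p, hp, rfl⟩ ⟨_, q, hq, rfl⟩
      rcases hc p hp q hq with h | h
      · exact ⟨⟨_, p, hp, rfl⟩, le_refl _, h⟩
      · exact ⟨⟨_, q, hq, rfl⟩, h, le_refl _⟩
    set U : D → Submodule ℂ H := fun w => (OrderDual.ofDual w.1)ᗮ with hU
    have hUm : Monotone U := fun w w' h => Submodule.orthogonal_le h
    have hcl : (⨆ w, U w).topologicalClosure = Wᗮ := by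
      rw [← Submodule.orthogonal_orthogonal_eq_closure, ← Submodule.iInf_orthogonal]
      congr 1
      apply le_antisymm
      · intro x hx
        simp only [hW, Submodule.mem_iInf] at hx ⊢
        intro p hp
        have h1 := hx ⟨_, p, hp, rfl⟩
        simp only [hU, OrderDual.ofDual_toDual] at h1
        rw [Submodule.orthogonal_orthogonal_eq_closure,
          (isClosed_range p.2.2).submodule_topologicalClosure_eq] at h1
        exact h1
      · refine le_iInf fun w => ?_
        obtain ⟨_, p, hp, rfl⟩ := w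
        exact (hle p hp).trans (Submodule.le_orthogonal_orthogonal _)
    have key : ∀ (L : Submodule ℂ H) [L.HasOrthogonalProjection], L = Wᗮ → ∀ x,
        L.starProjection x = x - W.starProjection x := by
      rintro L _ rfl x
      rw [Submodule.starProjection_orthogonal']
      rfl
    have htend : ∀ ξ : H, Tendsto (fun w : D => (U w).starProjection ξ) atTop
        (𝓝 (ξ - W.starProjection ξ)) := by
      intro ξ
      have h := Submodule.starProjection_tendsto_closure_iSup U hUm ξ
      rwa [key _ hcl ξ] at h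
    have hev : ∀ᶠ w : D in atTop, ∀ ξ ∈ K,
        ‖(U w).starProjection ξ - (ξ - W.starProjection ξ)‖ < δ := by
      rw [Filter.eventually_all_finset]
      intro ξ _
      have := (Metric.tendsto_nhds.1 (htend ξ)) δ hδ
      simpa [dist_eq_norm] using this
    obtain ⟨⟨_, p, hp, rfl⟩, hw⟩ := hev.exists
    refine ⟨p, hp, fun ξ hξ => ?_⟩
    have h1 := hw ξ hξ
    obtain ⟨hP, hP2⟩ := isStarProjection_iff_eq_starProjection_range.1 p.2.2
    have h2 : (U ⟨_, p, hp, rfl⟩).starProjection ξ = ξ - p.1 ξ := by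
      simp only [hU, OrderDual.ofDual_toDual]
      rw [Submodule.starProjection_orthogonal']
      conv_rhs => rw [hP2]
      rfl
    rw [h2] at h1
    have h3 : ξ - p.1 ξ - (ξ - W.starProjection ξ) = -((p.1 - W.starProjection) ξ) := by
      simp only [sub_apply]
      abel
    rwa [h3, norm_neg] at h1

end Fine

open Fine

theorem exists_fine {A : VonNeumannAlgebra H} (hA : IsMasa A) (hd : IsDiffuse A) (K : Finset H)
    {η : ℝ} (hη : 0 < η) :
    ∃ S0 : Finset (Pr A), ∀ S, S0 ⊆ S → ∀ s ⊆ S, ∀ ξ ∈ K, ‖atom A S s ξ‖ ^ 2 ≤ η := by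
  suffices h : Good A K η 1 by simpa [Good] using h
  by_contra hbad
  let α := {p : Pr A // ¬ Good A K η p.1}
  have hone : (1 : H →L[ℂ] H) ∈ A := one_mem A
  let one' : α := ⟨⟨1, hone, .one _⟩, hbad⟩
  obtain ⟨m, hm⟩ := exists_maximal_of_chains_bounded (α := α)
    (r := fun p q => q.1.1.range ≤ p.1.1.range) (by
      intro c hc
      rcases c.eq_empty_or_nonempty with h0 | hne
      · exact ⟨one', by simp [h0]⟩
      · set c' : Set (Pr A) := (fun p : α => p.1) '' c with hc'
        obtain ⟨P, hPA, hP, hPle, p, hp, hpK⟩ := exists_inf hA c' (hne.image _) (by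
          rintro _ ⟨p, hp, rfl⟩ _ ⟨q, hq, rfl⟩
          by_cases hpq : p = q
          · left; rw [hpq]
          · exact (hc hp hq hpq).symm) K (δ := Real.sqrt η) (Real.sqrt_pos.2 hη)
        have hPbad : ¬ Good A K η P := by
          intro hPg
          obtain ⟨p0, hp0, rfl⟩ := hp
          apply p0.2
          have hle := hPle _ ⟨p0, hp0, rfl⟩
          have e1 := mul_eq_of_range_le p0.1.2.2 hle
          have e2 := mul_eq_of_range_le' hP p0.1.2.2 hle
          have hsub : IsStarProjection (p0.1.1 - P) := hP.sub_of_mul_eq_left p0.1.2.2 e2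
          have hmem : p0.1.1 - P ∈ A := sub_mem p0.1.2.1 hPA
          have hg := good_add (K := K) hA hη.le hPA hP hmem hsub (by
            rw [mul_sub, e2, hP.isIdempotentElem.eq, sub_self]) hPg
            (good_of_small hA fun ξ hξ => by
              have := (hpK ξ hξ).le
              calc ‖(p0.1.1 - P) ξ‖ ^ 2 ≤ Real.sqrt η ^ 2 :=
                    pow_le_pow_left₀ (norm_nonneg _) this 2
                _ = η := Real.sq_sqrt hη.le)
          simpa using hg
        exact ⟨⟨⟨P, hPA, hP⟩, hPbad⟩, fun q hq => hPle _ ⟨q, hq, rfl⟩⟩)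
    (fun {a b c} h1 h2 => le_trans h2 h1)
  have hm0 : m.1.1 ≠ 0 := by
    intro h0
    apply m.2
    rw [h0]
    exact good_of_small hA fun ξ _ => by simpa using hη.le
  obtain ⟨e, heA, he, he0, hem, hme⟩ := hd m.1.1 m.1.2.1 m.1.2.2 hm0
  have hem' : e * m.1.1 = e := by
    have := congrArg star hme
    rwa [star_mul, he.isSelfAdjoint.star_eq, m.1.2.2.isSelfAdjoint.star_eq] at this
  have hsub : IsStarProjection (m.1.1 - e) := he.sub_of_mul_eq_left m.1.2.2 hem'
  have hsubA : m.1.1 - e ∈ A := sub_mem m.1.2.1 heA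
  have hrange : ∀ f : H →L[ℂ] H, m.1.1 * f = f → f.range ≤ m.1.1.range := by
    rintro f hf _ ⟨x, rfl⟩
    exact ⟨f x, by
      have := congrArg (fun T : H →L[ℂ] H => T x) hf
      simpa [mul_apply_eq_comp] using this⟩
  by_cases hge : Good A K η e
  · by_cases hgs : Good A K η (m.1.1 - e)
    · apply m.2
      have := good_add hA hη.le heA he hsubA hsub (by
        rw [mul_sub, hem', he.isIdempotentElem.eq, sub_self]) hge hgs
      simpa using this
    · have h1 : (m.1.1 - e).range ≤ m.1.1.range := hrange _ (by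
        rw [mul_sub, m.1.2.2.isIdempotentElem.eq, hme])
      have h2 := hm ⟨⟨m.1.1 - e, hsubA, hsub⟩, hgs⟩ h1
      have h3 := eq_of_range hsub m.1.2.2 h1 h2
      exact he0 (by simpa using h3)
  · have h1 : e.range ≤ m.1.1.range := hrange _ hme
    have h2 := hm ⟨⟨e, heA, he⟩, hge⟩ h1
    exact hem (eq_of_range he m.1.2.2 h1 h2)

end Vale.Agent.P078
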