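import Vale.Agent.P078.Defs

/-! P078: an operator commuting with all projections of a MASA belongs to it -/

namespace Vale.Agent.P078

variable {H : Type*} [NormedAddCommGroup H] [InnerProductSpace ℂ H] [CompleteSpace H]

/-- the projection onto the kernel of an operator commuting with the commutant -/
theorem ker_proj_mem {A : VonNeumannAlgebra H} {c : H →L[ℂ] H}
    (hc : ∀ y ∈ A.commutant, Commute c y) : c.ker.starProjection ∈ A := by
  have hp : IsStarProjection (c.ker.starProjection) := isStarProjection_starProjection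
  rw [VonNeumannAlgebra.IsStarProjection.mem_iff hp]
  intro y hy
  rw [Submodule.range_starProjection]
  rw [Module.End.mem_invtSubmodule]
  intro ξ hξ
  have h1 : c ξ = 0 := hξ
  show c (y ξ) = 0
  have h2 : (c * y) ξ = (y * c) ξ := by rw [(hc y hy).eq]
  have h3 : c (y ξ) = y (c ξ) := h2
  rw [h3, h1, map_zero]

/-- one halving step -/
theorem halve {A : VonNeumannAlgebra H} {b : H →L[ℂ] H} (hb : b ∈ A) (h0 : 0 ≤ b) {t : ℝ}
    (hM : b ≤ algebraMap ℝ _ (2 * t)) :
    ∃ p ∈ A, IsStarProjection p ∧ 0 ≤ b - t • p ∧ b - t • p ≤ algebraMap ℝ _ t := by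
  have hbs : IsSelfAdjoint b := IsSelfAdjoint.of_nonneg h0
  set T : H →L[ℂ] H := algebraMap ℝ _ t with hT
  have hTs : IsSelfAdjoint T := by rw [hT]; exact IsSelfAdjoint.algebraMap _ (IsSelfAdjoint.all t)
  have hsa : IsSelfAdjoint (b - T) := hbs.sub hTs
  set c := (b - T)⁺ with hc
  set d := (b - T)⁻ with hd
  have hcd : c - d = b - T := CFC.posPart_sub_negPart (b - T) hsa
  have hcd0 : c * d = 0 := CFC.posPart_mul_negPart (b - T)
  have hc0 : 0 ≤ c := CFC.posPart_nonneg _
  have hd0 : 0 ≤ d := CFC.negPart_nonneg _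
  have hcs : IsSelfAdjoint c := IsSelfAdjoint.of_nonneg hc0
  have hds : IsSelfAdjoint d := IsSelfAdjoint.of_nonneg hd0
  have hcomm : ∀ y ∈ A.commutant, Commute c y := by
    intro y hy
    have h1 : Commute (b - T) y := by
      have h2 : b * y = y * b := VonNeumannAlgebra.mem_commutant_iff.1 hy b hb
      have h3 : T * y = y * T := Algebra.commutes t y
      show (b - T) * y = y * (b - T)
      rw [sub_mul, mul_sub, h2, h3]
    rw [hc, CFC.posPart_def]
    exact h1.cfcₙ_real _
  set e := c.ker.starProjection with he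
  have hep : IsStarProjection e := isStarProjection_starProjection
  have heA : e ∈ A := ker_proj_mem hcomm
  have hce : c * e = 0 := by
    ext ξ
    exact Submodule.starProjection_apply_mem c.ker ξ
  have hed : e * d = d := by
    ext ξ
    show e (d ξ) = d ξ
    rw [he, Submodule.starProjection_eq_self_iff]
    show c (d ξ) = 0
    have : (c * d) ξ = 0 := by rw [hcd0]; rfl
    exact this
  have hec : e * c = 0 := by
    have := congrArg star hce
    rw [star_mul, hcs.star_eq, hep.isSelfAdjoint.star_eq, star_zero] at this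
    exact this
  have hde : d * e = d := by
    have := congrArg star hed
    rw [star_mul, hds.star_eq, hep.isSelfAdjoint.star_eq] at this
    exact this
  have hee : e * e = e := hep.isIdempotentElem
  have heT : e * T = T * e := (Algebra.commutes t e).symm
  have hbe : b = T + c - d := by rw [add_sub_assoc, hcd]; abel
  refine ⟨1 - e, sub_mem (one_mem _) heA, hep.one_sub, ?_, ?_⟩
  · -- `b - t (1 - e) = c + e b e`
    have h1 : b - t • (1 - e) = c + e * b * e := by
      have h2 : e * b * e = T * e - d := by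
        rw [hbe, mul_sub, mul_add, hec, hed, add_zero, sub_mul, hde, heT, mul_assoc, hee]
      rw [h2]
      have h3 : t • (1 - e) = T - T * e := by
        rw [smul_sub, hT, Algebra.algebraMap_eq_smul_one, smul_mul_assoc, one_mul]
      rw [h3]
      conv_lhs => rw [hbe]
      abel
    rw [h1]
    have h4 : 0 ≤ e * b * e := by
      have := star_left_conjugate_nonneg h0 e
      rwa [hep.isSelfAdjoint.star_eq] at this
    exact add_nonneg hc0 h4
  · -- `t - (b - t (1 - e)) = (1 - e) (2 t - b) (1 - e) + d`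
    rw [← sub_nonneg]
    have h3 : t • (1 - e) = T - T * e := by
      rw [smul_sub, hT, Algebra.algebraMap_eq_smul_one, smul_mul_assoc, one_mul]
    have h5 : algebraMap ℝ (H →L[ℂ] H) (2 * t) = T + T := by
      rw [two_mul, map_add]
    have h6 : (1 - e) * (T + T - b) * (1 - e) = T - T * e - c := by
      rw [hbe]
      have : T + T - (T + c - d) = T - c + d := by abel
      rw [this]
      simp only [mul_add, mul_sub, add_mul, sub_mul, one_mul, mul_one, hce, hec, hed, hde, heT,
        mul_assoc, hee]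
      simp
    have h1 : T - (b - t • (1 - e)) = (1 - e) * (T + T - b) * (1 - e) + d := by
      rw [h6, h3]
      conv_lhs => rw [hbe]
      abel
    rw [h1]
    refine add_nonneg ?_ hd0
    have h7 : 0 ≤ T + T - b := by rw [← h5]; exact sub_nonneg.2 hM
    have := star_left_conjugate_nonneg h7 (1 - e)
    rwa [hep.one_sub.isSelfAdjoint.star_eq] at this

theorem comm_bound {A : VonNeumannAlgebra H} {a : H →L[ℂ] H}
    (h : ∀ p ∈ A, IsStarProjection p → Commute a p) (n : ℕ) :
    ∀ (b : H →L[ℂ] H) (t : ℝ), b ∈ A → 0 ≤ t → 0 ≤ b → b ≤ algebraMap ℝ _ t →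
      ‖a * b - b * a‖ ≤ 2 * ‖a‖ * (t / 2 ^ n) := by
  induction n with
  | zero =>
    intro b t _ ht h0 hM
    have h1 : ‖b‖ ≤ t := (CStarAlgebra.norm_le_iff_le_algebraMap b ht h0).2 hM
    calc ‖a * b - b * a‖ ≤ ‖a * b‖ + ‖b * a‖ := norm_sub_le _ _
      _ ≤ ‖a‖ * ‖b‖ + ‖b‖ * ‖a‖ := add_le_add (norm_mul_le _ _) (norm_mul_le _ _)
      _ = 2 * ‖a‖ * ‖b‖ := by ring
      _ ≤ 2 * ‖a‖ * t := mul_le_mul_of_nonneg_left h1 (by positivity)
      _ = 2 * ‖a‖ * (t / 2 ^ 0) := by rw [pow_zero, div_one]
  | succ n ih =>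
    intro b t hb ht h0 hM
    obtain ⟨p, hpA, hp, h1, h2⟩ := halve (t := t / 2) hb h0 (by
      have : 2 * (t / 2) = t := by ring
      rw [this]; exact hM)
    have hmem : b - (t / 2) • p ∈ A := by
      refine sub_mem hb ?_
      have : (t / 2) • p = ((t / 2 : ℝ) : ℂ) • p := (Complex.coe_smul _ _).symm
      rw [this]
      exact A.toStarSubalgebra.smul_mem hpA _
    have h3 := ih _ _ hmem (by positivity) h1 h2
    have h4 : a * (b - (t / 2) • p) - (b - (t / 2) • p) * a = a * b - b * a := by
      rw [mul_sub, sub_mul, mul_smul_comm, smul_mul_assoc, (h p hpA hp).eq]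
      abel
    rw [h4] at h3
    refine h3.trans (le_of_eq ?_)
    rw [pow_succ]
    ring

theorem comm_nonneg {A : VonNeumannAlgebra H} {a : H →L[ℂ] H}
    (h : ∀ p ∈ A, IsStarProjection p → Commute a p) {b : H →L[ℂ] H} {t : ℝ} (hb : b ∈ A)
    (ht : 0 ≤ t) (h0 : 0 ≤ b) (hM : b ≤ algebraMap ℝ _ t) : Commute a b := by
  have h1 : ∀ n : ℕ, ‖a * b - b * a‖ ≤ 2 * ‖a‖ * (t / 2 ^ n) := fun n =>
    comm_bound h n b t hb ht h0 hM
  have h2 : Filter.Tendsto (fun n : ℕ => 2 * ‖a‖ * (t / 2 ^ n)) Filter.atTop (nhds 0) := by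
    have h3 : Filter.Tendsto (fun n : ℕ => 2 * ‖a‖ * t * (1 / 2 : ℝ) ^ n) Filter.atTop
        (nhds (2 * ‖a‖ * t * 0)) :=
      (tendsto_pow_atTop_nhds_zero_of_lt_one (by norm_num) (by norm_num)).const_mul _
    rw [mul_zero] at h3
    refine h3.congr fun n => ?_
    rw [one_div, inv_pow]
    ring
  have h3 : ‖a * b - b * a‖ ≤ 0 := ge_of_tendsto' h2 h1
  have h4 : a * b - b * a = 0 := norm_le_zero_iff.1 h3
  exact sub_eq_zero.1 h4

theorem comm_selfAdjoint {A : VonNeumannAlgebra H} {a : H →L[ℂ] H}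
    (h : ∀ p ∈ A, IsStarProjection p → Commute a p) {b : H →L[ℂ] H} (hb : b ∈ A)
    (hs : IsSelfAdjoint b) : Commute a b := by
  have h1 : -algebraMap ℝ (H →L[ℂ] H) ‖b‖ ≤ b := hs.neg_algebraMap_norm_le_self
  have h2 : b ≤ algebraMap ℝ (H →L[ℂ] H) ‖b‖ := hs.le_algebraMap_norm_self
  have hmem : algebraMap ℝ (H →L[ℂ] H) ‖b‖ ∈ A := by
    rw [Algebra.algebraMap_eq_smul_one]
    have : ‖b‖ • (1 : H →L[ℂ] H) = ((‖b‖ : ℝ) : ℂ) • (1 : H →L[ℂ] H) :=
      (Complex.coe_smul _ _).symm
    rw [this]
    exact A.toStarSubalgebra.smul_mem (one_mem A) _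
  have h3 : Commute a (b + algebraMap ℝ (H →L[ℂ] H) ‖b‖) := by
    refine comm_nonneg h (t := 2 * ‖b‖) (add_mem hb hmem) (by positivity) ?_ ?_
    · have := sub_nonneg.2 h1
      rwa [sub_neg_eq_add] at this
    · rw [two_mul, map_add]
      exact add_le_add_left h2 _
  have h4 : Commute a (algebraMap ℝ (H →L[ℂ] H) ‖b‖) := (Algebra.commutes _ _).symm
  have h5 := h3.sub_right h4
  rwa [add_sub_cancel_right] at h5

/-- an operator commuting with all projections of a MASA belongs to it -/
theorem mem_of_commute_proj {A : VonNeumannAlgebra H} (hA : IsMasa A) {a : H →L[ℂ] H}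
    (h : ∀ p ∈ A, IsStarProjection p → Commute a p) : a ∈ A := by
  rw [← hA, VonNeumannAlgebra.mem_commutant_iff]
  intro b hb
  have hs : star b ∈ A := star_mem hb
  have e : b = (1 / 2 : ℂ) • (b + star b) + (-(Complex.I / 2)) • (Complex.I • (b - star b)) := by
    rw [smul_smul]
    have : -(Complex.I / 2) * Complex.I = 1 / 2 := by
      rw [neg_mul, div_mul_eq_mul_div, Complex.I_mul_I]; ring
    rw [this, ← smul_add]
    have : b + star b + (b - star b) = (2 : ℂ) • b := by rw [two_smul]; abel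
    rw [this, smul_smul]
    norm_num
  have h1 : Commute a (b + star b) := comm_selfAdjoint h (add_mem hb hs) (IsSelfAdjoint.add_star_self b)
  have h2 : Commute a (Complex.I • (b - star b)) := by
    refine comm_selfAdjoint h (A.toStarSubalgebra.smul_mem (sub_mem hb hs) _) ?_
    show star _ = _
    rw [star_smul, star_sub, star_star, Complex.star_def, Complex.conj_I, neg_smul, ← smul_neg,
      neg_sub]
  have h3 : Commute a b := by
    rw [e]
    exact (h1.smul_right _).add_right (h2.smul_right _)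
  exact h3.eq.symm

end Vale.Agent.P078
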