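import Vale.Agent.P078.WotLim
import Vale.Agent.P078.Spec
import Vale.Agent.P078.Atom

/-! P078: a weak operator limit of the conditional expectations onto finite subalgebras -/

namespace Vale.Agent.P078

open Filter Topology

variable {H : Type*} [NormedAddCommGroup H] [InnerProductSpace ℂ H] [CompleteSpace H]

/-- `D_S(x)`: the sum of `e x e` over the atoms `e` of the finite Boolean algebra generated by
`S` -/
noncomputable def DS (A : VonNeumannAlgebra H) (S : Finset (Pr A)) (x : H →L[ℂ] H) :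
    H →L[ℂ] H :=
  ∑ s ∈ S.powerset, atom A S s * x * atom A S s

lemma DS_norm_le {A : VonNeumannAlgebra H} (hA : IsMasa A) (S : Finset (Pr A))
    (x : H →L[ℂ] H) : ‖DS A S x‖ ≤ ‖x‖ := by
  obtain ⟨h1, -, h3, -⟩ := atom_facts hA S
  exact pinch_bound (fun s _ => (h1 s).2) h3 x

lemma DS_commute {A : VonNeumannAlgebra H} (hA : IsMasa A) {S : Finset (Pr A)} {p : Pr A}
    (hp : p ∈ S) (x : H →L[ℂ] H) : DS A S x * p.1 = p.1 * DS A S x := by
  classical
  obtain ⟨h1, -, -, h4⟩ := atom_facts hA S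
  have h5 : ∀ s ⊆ S, p.1 * atom A S s = if p ∈ s then atom A S s else 0 := by
    intro s hs
    have h := congrArg star (h4 p hp s hs)
    rw [star_mul, p.2.2.isSelfAdjoint.star_eq, (h1 s).2.isSelfAdjoint.star_eq] at h
    rw [h]
    split_ifs with h6
    · exact (h1 s).2.isSelfAdjoint.star_eq
    · exact star_zero _
  unfold DS
  rw [Finset.sum_mul, Finset.mul_sum]
  refine Finset.sum_congr rfl fun s hs => ?_
  have hs' := Finset.mem_powerset.1 hs
  calc atom A S s * x * atom A S s * p.1 = atom A S s * x * (atom A S s * p.1) := by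
        rw [mul_assoc]
    _ = (p.1 * atom A S s) * x * atom A S s := by
        rw [h4 p hp s hs', h5 s hs']
        split_ifs
        · rfl
        · simp
    _ = p.1 * (atom A S s * x * atom A S s) := by
        rw [mul_assoc, mul_assoc, mul_assoc]

lemma DS_selfAdjoint {A : VonNeumannAlgebra H} (hA : IsMasa A) (S : Finset (Pr A))
    {x : H →L[ℂ] H} (hx : IsSelfAdjoint x) : IsSelfAdjoint (DS A S x) := by
  obtain ⟨h1, -, -, -⟩ := atom_facts hA S
  unfold DS
  refine isSelfAdjoint_sum _ fun s _ => ?_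
  have h := (h1 s).2.isSelfAdjoint
  have := hx.conjugate (atom A S s)
  rwa [h.star_eq] at this

theorem exists_limit {A : VonNeumannAlgebra H} (hA : IsMasa A) {x : H →L[ℂ] H}
    (hx : IsSelfAdjoint x) : ∃ a ∈ A, IsSelfAdjoint a ∧ ‖a‖ ≤ ‖x‖ ∧
      ∀ (K : Finset H) (η : ℝ), 0 < η → ∀ S0 : Finset (Pr A), ∃ S, S0 ⊆ S ∧
        ∀ ξ ∈ K, ∀ ζ ∈ K, ‖inner ℂ ((DS A S x - a) ξ) ζ‖ ≤ η := by
  classical
  let U : Ultrafilter (Finset (Pr A)) := Ultrafilter.of atTop
  have hU : (U : Filter (Finset (Pr A))) ≤ atTop := Ultrafilter.of_le atTop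
  obtain ⟨a, ha, hl⟩ := wot_lim U (T := fun S => DS A S x) (fun S => DS_norm_le hA S x)
  have hev : ∀ S0 : Finset (Pr A), ∀ᶠ S in (U : Filter (Finset (Pr A))), S0 ⊆ S := fun S0 =>
    hU (mem_atTop S0)
  refine ⟨a, ?_, ?_, ha, ?_⟩
  · refine mem_of_commute_proj hA fun p hp hpp => ?_
    refine ContinuousLinearMap.ext fun ξ => ext_inner_right ℂ fun ζ => ?_
    have e1 : inner ℂ ((p * a) ξ) ζ = (inner ℂ (a ξ) (p ζ) : ℂ) := proj_inner hpp _ _
    change inner ℂ (a (p ξ)) ζ = inner ℂ ((p * a) ξ) ζ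
    rw [e1]
    refine tendsto_nhds_unique (hl (p ξ) ζ) ((hl ξ (p ζ)).congr' ?_)
    filter_upwards [hev {⟨p, hp, hpp⟩}] with S hS
    have h1 := DS_commute hA (S := S) (p := ⟨p, hp, hpp⟩) (hS (Finset.mem_singleton_self _)) x
    have h2 : DS A S x (p ξ) = p (DS A S x ξ) := by
      have := congrArg (fun T : H →L[ℂ] H => T ξ) h1
      exact this
    rw [h2, proj_inner hpp]
  · rw [ContinuousLinearMap.isSelfAdjoint_iff_isSymmetric]
    intro ξ ζ
    change inner ℂ (a ξ) ζ = inner ℂ ξ (a ζ)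
    have h1 := hl ξ ζ
    have h2 := (Complex.continuous_conj.tendsto _).comp (hl ζ ξ)
    rw [inner_conj_symm] at h2
    refine tendsto_nhds_unique h1 (h2.congr fun S => ?_)
    change (starRingEnd ℂ) (inner ℂ (DS A S x ζ) ξ) = inner ℂ (DS A S x ξ) ζ
    rw [inner_conj_symm]
    exact ((ContinuousLinearMap.isSelfAdjoint_iff_isSymmetric.1 (DS_selfAdjoint hA S hx)) ξ ζ).symm
  · intro K η hη S0
    have h : ∀ᶠ S in (U : Filter (Finset (Pr A))), S0 ⊆ S ∧
        ∀ ξ ∈ K, ∀ ζ ∈ K, ‖inner ℂ ((DS A S x - a) ξ) ζ‖ ≤ η := by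
      refine (hev S0).and ?_
      rw [Filter.eventually_all_finset]
      intro ξ _
      rw [Filter.eventually_all_finset]
      intro ζ _
      have h1 : Tendsto (fun S => inner ℂ ((DS A S x - a) ξ) ζ) U (𝓝 0) := by
        have := (hl ξ ζ).sub_const (inner ℂ (a ξ) ζ)
        rw [sub_self] at this
        refine this.congr fun S => ?_
        rw [_root_.sub_apply, inner_sub_left]
      have h2 := h1.norm
      rw [norm_zero] at h2
      filter_upwards [h2.eventually (gt_mem_nhds hη)] with S hS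
      exact hS.le
    obtain ⟨S, hS⟩ := h.exists
    exact ⟨S, hS.1, hS.2⟩

end Vale.Agent.P078
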