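import Vale.Agent.P078.Op
import Vale.Agent.P078.Atom
import Vale.Agent.P078.Limit
import Vale.Agent.P078.Fine

namespace Vale.Agent.P078

open Finset

variable {H : Type*} [NormedAddCommGroup H] [InnerProductSpace ℂ H] [CompleteSpace H]

theorem smul_mem' (A : VonNeumannAlgebra H) (c : ℂ) {a : H →L[ℂ] H} (ha : a ∈ A) : c • a ∈ A :=
  A.toStarSubalgebra.smul_mem ha c

/-- compression to a finite dimensional subspace -/
theorem norm_compress_le {V : Submodule ℂ H} [FiniteDimensional ℂ V] {ι : Type*} [Fintype ι]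
    (b : OrthonormalBasis ι ℂ V) (T : H →L[ℂ] H) :
    ‖V.starProjection * T * V.starProjection‖ ≤
      ∑ i, ∑ k, ‖(inner ℂ (T (b i : H)) (b k : H) : ℂ)‖ := by
  have hn : ∀ i, ‖(b i : H)‖ = 1 := fun i => b.orthonormal.1 i
  refine ContinuousLinearMap.opNorm_le_bound _
    (Finset.sum_nonneg fun _ _ => Finset.sum_nonneg fun _ _ => norm_nonneg _) fun v => ?_
  have h1 : ∀ w : H, V.starProjection w = ∑ i, inner ℂ (b i : H) w • (b i : H) := by
    intro w
    rw [b.starProjection_eq_sum_rankOne]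
    simp
  have h2 : (V.starProjection * T * V.starProjection) v =
      ∑ k, ∑ i, (inner ℂ (b i : H) v * inner ℂ (b k : H) (T (b i : H))) • (b k : H) := by
    show V.starProjection (T (V.starProjection v)) = _
    rw [h1 (T _), h1 v]
    refine Finset.sum_congr rfl fun k _ => ?_
    rw [map_sum, inner_sum, Finset.sum_smul]
    refine Finset.sum_congr rfl fun i _ => ?_
    rw [map_smul, inner_smul_right]
  rw [h2, Finset.sum_comm]
  refine (norm_sum_le _ _).trans ?_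
  rw [Finset.sum_mul]
  refine Finset.sum_le_sum fun i _ => ?_
  refine (norm_sum_le _ _).trans ?_
  rw [Finset.sum_mul]
  refine Finset.sum_le_sum fun k _ => ?_
  rw [norm_smul, norm_mul, hn k, mul_one, norm_inner_symm (b k : H)]
  have h3 : ‖(inner ℂ (b i : H) v : ℂ)‖ ≤ ‖v‖ := by
    have := norm_inner_le_norm (𝕜 := ℂ) (b i : H) v
    rwa [hn i, one_mul] at this
  rw [mul_comm]
  exact mul_le_mul_of_nonneg_left h3 (norm_nonneg _)

section
variable {ι : Type*} [Fintype ι] [DecidableEq ι] {r : ℕ}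

/-- classes of a colouring -/
noncomputable def cls (e : ι → H →L[ℂ] H) (c : ι → Fin r) (k : Fin r) : H →L[ℂ] H :=
  ∑ i, if c i = k then e i else 0

theorem cls_mul {e : ι → H →L[ℂ] H} (hp : ∀ i, IsStarProjection (e i))
    (ho : ∀ i j, i ≠ j → e i * e j = 0) (c : ι → Fin r) (k l : Fin r) :
    cls e c k * cls e c l = if k = l then cls e c k else 0 := by
  unfold cls
  rw [Finset.sum_mul_sum]
  have h1 : ∀ i j, (if c i = k then e i else 0) * (if c j = l then e j else 0) =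
      if i = j then (if c i = k ∧ c i = l then e i else 0) else 0 := by
    intro i j
    by_cases hij : i = j
    · subst hij
      have h2 : e i * e i = e i := (hp i).isIdempotentElem
      by_cases hk : c i = k <;> by_cases hl : c i = l <;> simp_all
    · simp only [hij, if_false]
      split_ifs <;> simp [ho i j hij]
  simp only [h1, Finset.sum_ite_eq, Finset.mem_univ, if_true]
  by_cases hkl : k = l
  · subst hkl; simp
  · rw [if_neg hkl]
    refine Finset.sum_eq_zero fun i _ => ?_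
    rw [if_neg]
    rintro ⟨h2, h3⟩
    exact hkl (h2.symm.trans h3)

theorem cls_partition {A : VonNeumannAlgebra H} {e : ι → H →L[ℂ] H} (hm : ∀ i, e i ∈ A)
    (hp : ∀ i, IsStarProjection (e i)) (ho : ∀ i j, i ≠ j → e i * e j = 0)
    (hs : ∑ i, e i = 1) (c : ι → Fin r) : IsPartition A (cls e c) where
  mem k := by
    unfold cls
    refine sum_mem fun i _ => ?_
    split_ifs
    · exact hm i
    · exact zero_mem A
  proj k := by
    refine ⟨?_, ?_⟩
    · have := cls_mul hp ho c k k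
      rw [if_pos rfl] at this
      exact this
    · unfold cls
      rw [IsSelfAdjoint, star_sum]
      refine Finset.sum_congr rfl fun i _ => ?_
      split_ifs
      · exact (hp i).isSelfAdjoint
      · exact star_zero _
  orth k l hkl := by rw [cls_mul hp ho, if_neg hkl]
  sum := by
    unfold cls
    rw [Finset.sum_comm, ← hs]
    refine Finset.sum_congr rfl fun i _ => ?_
    simp

theorem pinch_cls (e : ι → H →L[ℂ] H) (c : ι → Fin r) (x : H →L[ℂ] H) :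
    pinch (cls e c) x = ∑ i, ∑ j, if c i = c j then e i * x * e j else 0 := by
  unfold pinch cls
  have h1 : ∀ k : Fin r, (∑ i, if c i = k then e i else 0) * x *
      (∑ i, if c i = k then e i else 0) =
      ∑ i, ∑ j, if c i = k ∧ c j = k then e i * x * e j else 0 := by
    intro k
    rw [Finset.sum_mul, Finset.sum_mul]
    refine Finset.sum_congr rfl fun i _ => ?_
    rw [Finset.mul_sum]
    refine Finset.sum_congr rfl fun j _ => ?_
    by_cases h2 : c i = k <;> by_cases h3 : c j = k <;> simp [h2, h3]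
  simp only [h1]
  rw [Finset.sum_comm]
  refine Finset.sum_congr rfl fun i _ => ?_
  rw [Finset.sum_comm]
  refine Finset.sum_congr rfl fun j _ => ?_
  have h4 : ∀ k : Fin r, (if c i = k ∧ c j = k then e i * x * e j else 0) =
      if c i = k then (if c i = c j then e i * x * e j else 0) else 0 := by
    intro k
    by_cases h2 : c i = k
    · subst h2
      by_cases h3 : c j = c i
      · simp [h3]
      · have h5 : ¬ c i = c j := fun h => h3 h.symm
        simp [h3, h5]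
    · simp [h2]
  simp only [h4, Finset.sum_ite_eq, Finset.mem_univ, if_true]

theorem dev_eq {e : ι → H →L[ℂ] H} (hs : ∑ i, e i = 1) (c : ι → Fin r)
    (x : H →L[ℂ] H) :
    pinch (cls e c) x = ((1 / r : ℝ) : ℂ) • x + ((1 - 1 / r : ℝ) : ℂ) • (∑ i, e i * x * e i) +
      dev e x c := by
  have hx : x = ∑ i, ∑ j, e i * x * e j := by
    have : x = (∑ i, e i) * x * (∑ j, e j) := by rw [hs, one_mul, mul_one]
    conv_lhs => rw [this]
    rw [Finset.sum_mul, Finset.sum_mul]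
    refine Finset.sum_congr rfl fun i _ => ?_
    rw [Finset.mul_sum]
  have h1 : ((1 / r : ℝ) : ℂ) • x = ∑ i, ∑ j, ((1 / r : ℝ) : ℂ) • (e i * x * e j) := by
    conv_lhs => rw [hx]
    simp only [Finset.smul_sum]
  have h2 : ((1 - 1 / r : ℝ) : ℂ) • (∑ i, e i * x * e i) =
      ∑ i, ∑ j, if i = j then ((1 - 1 / r : ℝ) : ℂ) • (e i * x * e j) else 0 := by
    rw [Finset.smul_sum]
    refine Finset.sum_congr rfl fun i _ => ?_
    simp
  rw [pinch_cls, h1, h2, dev, ← Finset.sum_add_distrib, ← Finset.sum_add_distrib]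
  refine Finset.sum_congr rfl fun i _ => ?_
  rw [← Finset.sum_add_distrib, ← Finset.sum_add_distrib]
  refine Finset.sum_congr rfl fun j _ => ?_
  by_cases hij : i = j
  · subst hij
    simp only [if_true, add_zero]
    rw [← add_smul, ← Complex.ofReal_add]
    simp
  · simp only [hij, if_false, add_zero]
    rw [← add_smul, ← Complex.ofReal_add]
    by_cases hc : c i = c j
    · simp [wc, hc]
    · simp [wc, hc]

end

theorem num_bound {X Y τ : ℝ} (hX : 0 ≤ X) (hY : 0 ≤ Y) :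
    2 * (τ ^ 2 / (2 * (X * Y) + 1) * X * Y) ≤ τ ^ 2 := by
  have h : 2 * (τ ^ 2 / (2 * (X * Y) + 1) * X * Y) = τ ^ 2 * (2 * (X * Y)) / (2 * (X * Y) + 1) := by
    ring
  have h0 : 0 ≤ X * Y := mul_nonneg hX hY
  rw [h, div_le_iff₀ (by positivity)]
  nlinarith [sq_nonneg τ]

theorem entry_bound {D E : H →L[ℂ] H} {t τ : ℝ} (ht0 : 0 ≤ t) (ht1 : t ≤ 1) (hτ : 0 ≤ τ) {u v : H}
    (h1 : ‖(inner ℂ (D u) v : ℂ)‖ ^ 2 ≤ τ ^ 2) (h2 : ‖(inner ℂ (E u) v : ℂ)‖ ≤ τ) :
    ‖(inner ℂ ((D + (t : ℂ) • E) u) v : ℂ)‖ ≤ 2 * τ := by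
  have h5 : (inner ℂ ((D + (t : ℂ) • E) u) v : ℂ) = inner ℂ (D u) v +
      (t : ℂ) * inner ℂ (E u) v := by
    show (inner ℂ (D u + (t : ℂ) • E u) v : ℂ) = _
    rw [inner_add_left, inner_smul_left, Complex.conj_ofReal]
  rw [h5]
  refine (norm_add_le _ _).trans ?_
  have h6 : ‖(inner ℂ (D u) v : ℂ)‖ ≤ τ := le_of_sq_le_sq h1 hτ
  have h8 : ‖(t : ℂ) * inner ℂ (E u) v‖ ≤ τ := by
    rw [norm_mul, Complex.norm_real, Real.norm_eq_abs, abs_of_nonneg ht0]
    calc t * ‖(inner ℂ (E u) v : ℂ)‖ ≤ 1 * τ := mul_le_mul ht1 h2 (norm_nonneg _) zero_le_one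
      _ = τ := one_mul _
  linarith

theorem core {A : VonNeumannAlgebra H} {ι : Type*} [Fintype ι] [DecidableEq ι]
    {e : ι → H →L[ℂ] H} (hm : ∀ i, e i ∈ A)
    (hp : ∀ i, IsStarProjection (e i)) (ho : ∀ i j, i ≠ j → e i * e j = 0)
    (hs : ∑ i, e i = 1) {r : ℕ} (hr : 0 < r) (x a : H →L[ℂ] H)
    {V : Submodule ℂ H} [FiniteDimensional ℂ V] {n : ℕ} (b : OrthonormalBasis (Fin n) ℂ V)
    {K : Finset H} (hKb : ∀ i, (b i : H) ∈ K) {τ η γ : ℝ} (hτ0 : 0 ≤ τ) (hη0 : 0 ≤ η)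
    (hf : ∀ i, ∀ ζ ∈ K, ‖e i ζ‖ ^ 2 ≤ η)
    (hS : ∀ ξ ∈ K, ∀ ζ ∈ K, ‖(inner ℂ ((∑ i, e i * x * e i - a) ξ) ζ : ℂ)‖ ≤ τ)
    (hnum : 2 * (η * ‖x‖ ^ 2 * (K.card * ∑ ξ ∈ K, ‖ξ‖ ^ 2)) ≤ τ ^ 2)
    (hfin : (n : ℝ) ^ 2 * (2 * τ) ≤ γ * ‖x‖) :
    ∃ p : Fin r → H →L[ℂ] H, IsPartition A p ∧
      ‖V.starProjection * (pinch p x - ((1 - 1 / r : ℝ) : ℂ) • a) * V.starProjection‖ ≤
        (1 / r + γ) * ‖x‖ := by
  obtain ⟨c, hc⟩ := exists_colouring hr hp hs x hη0 K hf
  have hr0 : (0 : ℝ) ≤ 1 / r := by positivity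
  have hr1 : (1 : ℝ) / r ≤ 1 := by
    rw [div_le_one (by exact_mod_cast hr)]; exact_mod_cast hr
  refine ⟨cls e c, cls_partition hm hp ho hs c, ?_⟩
  have hdec : pinch (cls e c) x - ((1 - 1 / r : ℝ) : ℂ) • a =
      ((1 / r : ℝ) : ℂ) • x + (dev e x c + ((1 - 1 / r : ℝ) : ℂ) • (∑ i, e i * x * e i - a)) := by
    rw [dev_eq hs c x, smul_sub]; abel
  rw [hdec]
  have hq1 : ‖V.starProjection‖ ≤ 1 := Submodule.starProjection_norm_le V
  rw [mul_add, add_mul]
  have h2 : ‖V.starProjection * (((1 / r : ℝ) : ℂ) • x) * V.starProjection‖ ≤ 1 / r * ‖x‖ := by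
    calc ‖V.starProjection * (((1 / r : ℝ) : ℂ) • x) * V.starProjection‖
        ≤ ‖V.starProjection‖ * ‖((1 / r : ℝ) : ℂ) • x‖ * ‖V.starProjection‖ :=
          (norm_mul_le _ _).trans (by gcongr; exact norm_mul_le _ _)
      _ ≤ 1 * ‖((1 / r : ℝ) : ℂ) • x‖ * 1 := by gcongr
      _ = 1 / r * ‖x‖ := by
          rw [norm_smul, Complex.norm_real, Real.norm_eq_abs, abs_of_nonneg hr0]; ring
  have h3 : ‖V.starProjection * (dev e x c + ((1 - 1 / r : ℝ) : ℂ) • (∑ i, e i * x * e i - a)) *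
      V.starProjection‖ ≤ γ * ‖x‖ := by
    refine (norm_compress_le b _).trans ?_
    have h4 : ∀ i k, ‖(inner ℂ ((dev e x c + ((1 - 1 / r : ℝ) : ℂ) •
        (∑ i, e i * x * e i - a)) (b i : H)) (b k : H) : ℂ)‖ ≤ 2 * τ := fun i k =>
      entry_bound (by linarith) (by linarith) hτ0 ((hc _ (hKb i) _ (hKb k)).trans hnum)
        (hS _ (hKb i) _ (hKb k))
    refine (Finset.sum_le_sum fun i _ => Finset.sum_le_sum fun k _ => h4 i k).trans ?_
    refine le_trans (le_of_eq ?_) hfin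
    simp
    ring
  calc _ ≤ 1 / r * ‖x‖ + γ * ‖x‖ := (norm_add_le _ _).trans (add_le_add h2 h3)
    _ = (1 / r + γ) * ‖x‖ := by ring

theorem so_pavable {A : VonNeumannAlgebra H} (hA : IsMasa A) (hd : IsDiffuse A) {ε : ℝ}
    {r : ℕ} (hr : 0 < r) (hrε : 1 / (r : ℝ) < ε) {x : H →L[ℂ] H} (hx : IsSelfAdjoint x) :
    SoPavable A ε r x := by
  classical
  intro F δ hδ
  by_cases hx0 : x = 0
  · subst hx0
    refine ⟨fun k => if k = ⟨0, hr⟩ then 1 else 0, ?_, 0, zero_mem A, IsSelfAdjoint.zero _,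
      by simp, 1, IsStarProjection.one _, fun ξ _ => by simpa using hδ, ?_⟩
    · refine ⟨fun k => ?_, fun k => ?_, fun k l hkl => ?_, by simp⟩
      · split_ifs
        · exact one_mem A
        · exact zero_mem A
      · split_ifs
        · exact IsStarProjection.one _
        · exact IsStarProjection.zero _
      · by_cases h1 : k = ⟨0, hr⟩
        · have h2 : l ≠ ⟨0, hr⟩ := fun h => hkl (h1.trans h.symm)
          simp [h2]
        · simp [h1]
    · simp [pinch]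
  have hxn : 0 < ‖x‖ := norm_pos_iff.2 hx0
  obtain ⟨V, hV, hFV⟩ : ∃ V : Submodule ℂ H, FiniteDimensional ℂ V ∧ ∀ ξ ∈ F, ξ ∈ V :=
    ⟨Submodule.span ℂ (F : Set H), FiniteDimensional.span_finset ℂ F,
      fun ξ hξ => Submodule.subset_span hξ⟩
  obtain ⟨n, b⟩ : Σ n : ℕ, OrthonormalBasis (Fin n) ℂ V := ⟨_, stdOrthonormalBasis ℂ V⟩
  obtain ⟨K, hK⟩ : ∃ K : Finset H, ∀ i, (b i : H) ∈ K :=
    ⟨Finset.univ.image fun i : Fin n => (b i : H), fun i =>
      Finset.mem_image_of_mem _ (Finset.mem_univ i)⟩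
  have hγ0 : 0 < ε - 1 / r := by linarith
  obtain ⟨τ, hτ0, hτ⟩ : ∃ τ : ℝ, 0 < τ ∧ (n : ℝ) ^ 2 * (2 * τ) ≤ (ε - 1 / r) * ‖x‖ := by
    refine ⟨(ε - 1 / r) * ‖x‖ / (2 * (n ^ 2 + 1)), by positivity, ?_⟩
    have h9 : (n : ℝ) ^ 2 * (2 * ((ε - 1 / r) * ‖x‖ / (2 * (n ^ 2 + 1)))) =
        (ε - 1 / r) * ‖x‖ * (n ^ 2 / (n ^ 2 + 1)) := by
      field_simp
    rw [h9]
    have h10 : (n : ℝ) ^ 2 / (n ^ 2 + 1) ≤ 1 := by
      rw [div_le_one (by positivity)]; linarith
    calc (ε - 1 / r) * ‖x‖ * ((n : ℝ) ^ 2 / (n ^ 2 + 1)) ≤ (ε - 1 / r) * ‖x‖ * 1 := by gcongr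
      _ = (ε - 1 / r) * ‖x‖ := mul_one _
  obtain ⟨η, hη0, hη⟩ : ∃ η : ℝ, 0 < η ∧
      2 * (η * ‖x‖ ^ 2 * (K.card * ∑ ξ ∈ K, ‖ξ‖ ^ 2)) ≤ τ ^ 2 := by
    have h0 : 0 ≤ (K.card * ∑ ξ ∈ K, ‖ξ‖ ^ 2 : ℝ) := by positivity
    exact ⟨τ ^ 2 / (2 * (‖x‖ ^ 2 * (K.card * ∑ ξ ∈ K, ‖ξ‖ ^ 2)) + 1), by positivity,
      num_bound (sq_nonneg ‖x‖) h0⟩
  obtain ⟨S0, hS0⟩ := exists_fine hA hd K hη0
  obtain ⟨a, haA, has, han, hlim⟩ := exists_limit hA hx
  obtain ⟨S, hSS, hS⟩ := hlim K τ hτ0 S0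
  obtain ⟨hat1, hat2, hat3, -⟩ := atom_facts hA S
  have hD : ∑ i : ↥S.powerset, atom A S i.1 * x * atom A S i.1 = DS A S x :=
    Finset.sum_coe_sort S.powerset fun s => atom A S s * x * atom A S s
  obtain ⟨p, hpart, hest⟩ := core (A := A) (e := fun s : ↥S.powerset => atom A S s.1)
    (fun i => (hat1 i.1).1) (fun i => (hat1 i.1).2)
    (fun i j hij => hat2 i.1 (Finset.mem_powerset.1 i.2) j.1 (Finset.mem_powerset.1 j.2)
      fun h => hij (Subtype.ext h))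
    ((Finset.sum_coe_sort S.powerset fun s => atom A S s).trans hat3) hr x a b hK hτ0.le hη0.le
    (fun i ζ hζ => hS0 S hSS i.1 (Finset.mem_powerset.1 i.2) ζ hζ)
    (by rw [hD]; exact hS) hη hτ
  have hr0 : (0 : ℝ) ≤ 1 / r := by positivity
  have hr1 : (1 : ℝ) / r ≤ 1 := by
    rw [div_le_one (by exact_mod_cast hr)]; exact_mod_cast hr
  refine ⟨p, hpart, ((1 - 1 / r : ℝ) : ℂ) • a, smul_mem' A _ haA, ?_, ?_, V.starProjection,
    isStarProjection_starProjection, fun ξ hξ => ?_, ?_⟩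
  · rw [IsSelfAdjoint, star_smul, has.star_eq]
    congr 1
    exact Complex.conj_ofReal _
  · rw [norm_smul, Complex.norm_real, Real.norm_eq_abs, abs_of_nonneg (by linarith)]
    calc (1 - 1 / (r : ℝ)) * ‖a‖ ≤ 1 * ‖x‖ :=
          mul_le_mul (by linarith) han (norm_nonneg _) zero_le_one
      _ = ‖x‖ := one_mul _
  · have h1 : V.starProjection ξ = ξ :=
      Submodule.starProjection_eq_self_iff.2 (hFV ξ hξ)
    show ‖ξ - V.starProjection ξ‖ < δ
    rw [h1, sub_self, norm_zero]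
    exact hδ
  · refine hest.trans (le_of_eq ?_)
    ring

end Vale.Agent.P078
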