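import Vale.Agent.P078.Colour

namespace Vale.Agent.P078

open Finset

variable {H : Type*} [NormedAddCommGroup H] [InnerProductSpace ℂ H] [CompleteSpace H]

theorem inner_proj {p : H →L[ℂ] H} (hp : IsStarProjection p) (ξ ζ : H) :
    inner ℂ (p ξ) ζ = inner ℂ ξ (p ζ) := by
  have h : ContinuousLinearMap.adjoint p = p := hp.isSelfAdjoint
  conv_lhs => rw [← h]
  exact ContinuousLinearMap.adjoint_inner_left p ζ ξ

theorem proj_proj {p : H →L[ℂ] H} (hp : IsStarProjection p) (ξ : H) : p (p ξ) = p ξ := by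
  have h : p * p = p := hp.isIdempotentElem
  have := congrArg (fun q : H →L[ℂ] H => q ξ) h
  simpa using this

theorem sum_norm_sq {ι : Type*} [Fintype ι] {e : ι → H →L[ℂ] H}
    (hp : ∀ i, IsStarProjection (e i)) (hs : ∑ i, e i = 1) (y : H) :
    ∑ i, ‖e i y‖ ^ 2 = ‖y‖ ^ 2 := by
  have h1 : ∀ i, (‖e i y‖ ^ 2 : ℝ) = RCLike.re (inner ℂ (e i y) y) := by
    intro i
    rw [← proj_proj (hp i) y, inner_proj (hp i) (e i y) y, proj_proj (hp i), 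
      inner_self_eq_norm_sq]
  simp only [h1]
  rw [← map_sum, ← sum_inner]
  have h2 : ∑ i, e i y = y := by
    have := congrArg (fun q : H →L[ℂ] H => q y) hs
    simpa using this
  rw [h2, inner_self_eq_norm_sq]

theorem sum_X_le {ι : Type*} [Fintype ι] {e : ι → H →L[ℂ] H}
    (hp : ∀ i, IsStarProjection (e i)) (hs : ∑ i, e i = 1) (x : H →L[ℂ] H) {η : ℝ} (hη : 0 ≤ η)
    (ξ ζ : H) (hf : ∀ i, ‖e i ζ‖ ^ 2 ≤ η) :
    ∑ i, ∑ j, ‖(inner ℂ ((e i * x * e j) ξ) ζ : ℂ)‖ ^ 2 ≤ η * ‖x‖ ^ 2 * ‖ξ‖ ^ 2 := by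
  have h1 : ∀ i j, ‖(inner ℂ ((e i * x * e j) ξ) ζ : ℂ)‖ ^ 2 ≤ ‖e i (x (e j ξ))‖ ^ 2 * η := by
    intro i j
    have h2 : (inner ℂ ((e i * x * e j) ξ) ζ : ℂ) = inner ℂ (e i (x (e j ξ))) (e i ζ) := by
      rw [← inner_proj (hp i), proj_proj (hp i)]
      rfl
    rw [h2]
    calc ‖(inner ℂ (e i (x (e j ξ))) (e i ζ) : ℂ)‖ ^ 2
        ≤ (‖e i (x (e j ξ))‖ * ‖e i ζ‖) ^ 2 := by
          gcongr; exact norm_inner_le_norm _ _
      _ = ‖e i (x (e j ξ))‖ ^ 2 * ‖e i ζ‖ ^ 2 := by ring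
      _ ≤ _ := by gcongr; exact hf i
  rw [Finset.sum_comm]
  have h3 : ∀ j, ∑ i, ‖(inner ℂ ((e i * x * e j) ξ) ζ : ℂ)‖ ^ 2 ≤ η * ‖x‖ ^ 2 * ‖e j ξ‖ ^ 2 := by
    intro j
    refine (Finset.sum_le_sum fun i _ => h1 i j).trans ?_
    rw [← Finset.sum_mul, sum_norm_sq hp hs]
    have h4 : ‖x (e j ξ)‖ ^ 2 ≤ (‖x‖ * ‖e j ξ‖) ^ 2 := by gcongr; exact x.le_opNorm _
    calc ‖x (e j ξ)‖ ^ 2 * η ≤ (‖x‖ * ‖e j ξ‖) ^ 2 * η := by gcongr
      _ = _ := by ring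
  refine (Finset.sum_le_sum fun j _ => h3 j).trans ?_
  rw [← Finset.mul_sum, sum_norm_sq hp hs]

/-- deviation of the pinching from its mean -/
noncomputable def dev {ι : Type*} [Fintype ι] [DecidableEq ι] {r : ℕ} (e : ι → H →L[ℂ] H)
    (x : H →L[ℂ] H) (c : ι → Fin r) : H →L[ℂ] H :=
  ∑ i, ∑ j, if i = j then 0 else ((wc c i j : ℝ) : ℂ) • (e i * x * e j)

theorem inner_dev {ι : Type*} [Fintype ι] [DecidableEq ι] {r : ℕ} (e : ι → H →L[ℂ] H)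
    (x : H →L[ℂ] H) (c : ι → Fin r) (ξ ζ : H) :
    (inner ℂ (dev e x c ξ) ζ : ℂ) = ∑ i, ∑ j, if i = j then 0 else
      ((wc c i j : ℝ) : ℂ) * inner ℂ ((e i * x * e j) ξ) ζ := by
  unfold dev
  simp only [ContinuousLinearMap.sum_apply, sum_inner]
  refine Finset.sum_congr rfl fun i _ => Finset.sum_congr rfl fun j _ => ?_
  by_cases h : i = j
  · simp [h]
  · simp only [h, if_false]
    rw [ContinuousLinearMap.smul_apply, inner_smul_left, Complex.conj_ofReal]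

theorem sum_dev_le {ι : Type*} [Fintype ι] [DecidableEq ι] {r : ℕ} {e : ι → H →L[ℂ] H}
    (hp : ∀ i, IsStarProjection (e i)) (hs : ∑ i, e i = 1) (x : H →L[ℂ] H) {η : ℝ} (hη : 0 ≤ η)
    (ξ ζ : H) (hf : ∀ i, ‖e i ζ‖ ^ 2 ≤ η) :
    ∑ c : ι → Fin r, ‖(inner ℂ (dev e x c ξ) ζ : ℂ)‖ ^ 2 ≤
      2 * (Fintype.card (ι → Fin r)) * (η * ‖x‖ ^ 2 * ‖ξ‖ ^ 2) := by
  set X : ι → ι → ℂ := fun i j => inner ℂ ((e i * x * e j) ξ) ζ with hX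
  have h1 : ∀ c : ι → Fin r, ‖(inner ℂ (dev e x c ξ) ζ : ℂ)‖ ^ 2 =
      (∑ i, ∑ j, if i = j then 0 else wc c i j * (X i j).re) ^ 2 +
      (∑ i, ∑ j, if i = j then 0 else wc c i j * (X i j).im) ^ 2 := by
    intro c
    rw [inner_dev, ← Complex.normSq_eq_norm_sq, Complex.normSq_apply]
    have hre : (∑ i, ∑ j, if i = j then 0 else ((wc c i j : ℝ) : ℂ) *
        inner ℂ ((e i * x * e j) ξ) ζ : ℂ).re =
        ∑ i, ∑ j, if i = j then 0 else wc c i j * (X i j).re := by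
      rw [Complex.re_sum]
      refine Finset.sum_congr rfl fun i _ => ?_
      rw [Complex.re_sum]
      refine Finset.sum_congr rfl fun j _ => ?_
      by_cases h : i = j
      · simp [h]
      · simp only [h, if_false]; rw [Complex.re_ofReal_mul]
    have him : (∑ i, ∑ j, if i = j then 0 else ((wc c i j : ℝ) : ℂ) *
        inner ℂ ((e i * x * e j) ξ) ζ : ℂ).im =
        ∑ i, ∑ j, if i = j then 0 else wc c i j * (X i j).im := by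
      rw [Complex.im_sum]
      refine Finset.sum_congr rfl fun i _ => ?_
      rw [Complex.im_sum]
      refine Finset.sum_congr rfl fun j _ => ?_
      by_cases h : i = j
      · simp [h]
      · simp only [h, if_false]; rw [Complex.im_ofReal_mul]
    rw [hre, him]
    ring
  simp only [h1]
  rw [Finset.sum_add_distrib]
  have h2 := second_moment (r := r) fun i j => (X i j).re
  have h3 := second_moment (r := r) fun i j => (X i j).im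
  have h4 := sum_X_le hp hs x hη ξ ζ hf
  have h5 : ∑ i, ∑ j, ‖(inner ℂ ((e i * x * e j) ξ) ζ : ℂ)‖ ^ 2 =
      ∑ i, ∑ j, (X i j).re ^ 2 + ∑ i, ∑ j, (X i j).im ^ 2 := by
    rw [← Finset.sum_add_distrib]
    refine Finset.sum_congr rfl fun i _ => ?_
    rw [← Finset.sum_add_distrib]
    refine Finset.sum_congr rfl fun j _ => ?_
    rw [← Complex.normSq_eq_norm_sq, Complex.normSq_apply]
    ring
  rw [h5] at h4
  have h6 : (0 : ℝ) ≤ 2 * (Fintype.card (ι → Fin r)) := by positivity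
  calc _ ≤ 2 * (Fintype.card (ι → Fin r) : ℝ) * ∑ i, ∑ j, (X i j).re ^ 2 +
        2 * (Fintype.card (ι → Fin r) : ℝ) * ∑ i, ∑ j, (X i j).im ^ 2 := add_le_add h2 h3
    _ = 2 * (Fintype.card (ι → Fin r) : ℝ) * (∑ i, ∑ j, (X i j).re ^ 2 +
        ∑ i, ∑ j, (X i j).im ^ 2) := by ring
    _ ≤ _ := mul_le_mul_of_nonneg_left h4 h6

/-- a good colouring -/
theorem exists_colouring {ι : Type*} [Fintype ι] [DecidableEq ι] {r : ℕ} (hr : 0 < r)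
    {e : ι → H →L[ℂ] H} (hp : ∀ i, IsStarProjection (e i)) (hs : ∑ i, e i = 1)
    (x : H →L[ℂ] H) {η : ℝ} (hη : 0 ≤ η) (K : Finset H) (hf : ∀ i, ∀ ζ ∈ K, ‖e i ζ‖ ^ 2 ≤ η) :
    ∃ c : ι → Fin r, ∀ ξ ∈ K, ∀ ζ ∈ K, ‖(inner ℂ (dev e x c ξ) ζ : ℂ)‖ ^ 2 ≤
      2 * (η * ‖x‖ ^ 2 * (K.card * ∑ ξ ∈ K, ‖ξ‖ ^ 2)) := by
  haveI : Nonempty (Fin r) := ⟨⟨0, hr⟩⟩
  by_contra hcon
  push Not at hcon
  set R : ℝ := 2 * (η * ‖x‖ ^ 2 * (K.card * ∑ ξ ∈ K, ‖ξ‖ ^ 2)) with hR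
  have h1 : ∀ c : ι → Fin r, R < ∑ ξ ∈ K, ∑ ζ ∈ K, ‖(inner ℂ (dev e x c ξ) ζ : ℂ)‖ ^ 2 := by
    intro c
    obtain ⟨ξ, hξ, ζ, hζ, h⟩ := hcon c
    refine h.trans_le ?_
    have h2 : ‖(inner ℂ (dev e x c ξ) ζ : ℂ)‖ ^ 2 ≤
        ∑ ζ ∈ K, ‖(inner ℂ (dev e x c ξ) ζ : ℂ)‖ ^ 2 :=
      Finset.single_le_sum (f := fun ζ => ‖(inner ℂ (dev e x c ξ) ζ : ℂ)‖ ^ 2)
        (fun _ _ => by positivity) hζ
    exact h2.trans (Finset.single_le_sum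
      (f := fun ξ => ∑ ζ ∈ K, ‖(inner ℂ (dev e x c ξ) ζ : ℂ)‖ ^ 2)
      (fun _ _ => Finset.sum_nonneg fun _ _ => by positivity) hξ)
  have h2 : ∑ _c : ι → Fin r, R <
      ∑ c : ι → Fin r, ∑ ξ ∈ K, ∑ ζ ∈ K, ‖(inner ℂ (dev e x c ξ) ζ : ℂ)‖ ^ 2 :=
    Finset.sum_lt_sum_of_nonempty Finset.univ_nonempty fun c _ => h1 c
  rw [Finset.sum_comm] at h2
  have h3 : ∀ ξ ∈ K, ∑ c : ι → Fin r, ∑ ζ ∈ K, ‖(inner ℂ (dev e x c ξ) ζ : ℂ)‖ ^ 2 ≤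
      K.card * (2 * (Fintype.card (ι → Fin r)) * (η * ‖x‖ ^ 2 * ‖ξ‖ ^ 2)) := by
    intro ξ _
    rw [Finset.sum_comm, ← nsmul_eq_mul]
    refine Finset.sum_le_card_nsmul _ _ _ fun ζ hζ => ?_
    exact sum_dev_le hp hs x hη ξ ζ fun i => hf i ζ hζ
  have h4 := h2.trans_le (Finset.sum_le_sum h3)
  rw [Finset.sum_const, Finset.card_univ, nsmul_eq_mul, hR] at h4
  have h5 : ∑ ξ ∈ K, (K.card : ℝ) * (2 * (Fintype.card (ι → Fin r)) * (η * ‖x‖ ^ 2 * ‖ξ‖ ^ 2)) =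
      (Fintype.card (ι → Fin r)) * (2 * (η * ‖x‖ ^ 2 * (K.card * ∑ ξ ∈ K, ‖ξ‖ ^ 2))) := by
    rw [Finset.mul_sum, Finset.mul_sum, Finset.mul_sum, Finset.mul_sum]
    exact Finset.sum_congr rfl fun ξ _ => by ring
  rw [h5] at h4
  exact lt_irrefl _ h4

end Vale.Agent.P078
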