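import Vale.Agent.P078.Defs

/-! P078: pinchings are contractive; weak operator limits along an ultrafilter -/

namespace Vale.Agent.P078

open Filter Topology

variable {H : Type*} [NormedAddCommGroup H] [InnerProductSpace ℂ H] [CompleteSpace H]

lemma proj_inner {p : H →L[ℂ] H} (hp : IsStarProjection p) (ξ ζ : H) :
    inner ℂ (p ξ) ζ = inner ℂ ξ (p ζ) :=
  (ContinuousLinearMap.isSelfAdjoint_iff_isSymmetric.1 hp.isSelfAdjoint) ξ ζ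

lemma proj_idem {p : H →L[ℂ] H} (hp : IsStarProjection p) (ξ : H) : p (p ξ) = p ξ := by
  have h : p * p = p := hp.isIdempotentElem
  calc p (p ξ) = (p * p) ξ := rfl
    _ = p ξ := by rw [h]

lemma proj_sq {p : H →L[ℂ] H} (hp : IsStarProjection p) (ξ : H) :
    (inner ℂ (p ξ) ξ : ℂ) = ((‖p ξ‖ ^ 2 : ℝ) : ℂ) := by
  have h : inner ℂ (p ξ) (p ξ) = (inner ℂ (p ξ) ξ : ℂ) := by
    rw [← proj_inner hp, proj_idem hp]
  rw [← h, inner_self_eq_norm_sq_to_K]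
  push_cast
  rfl

lemma sum_sq {ι : Type*} {I : Finset ι} {e : ι → H →L[ℂ] H}
    (he : ∀ i ∈ I, IsStarProjection (e i)) (h1 : ∑ i ∈ I, e i = 1) (ξ : H) :
    ∑ i ∈ I, ‖e i ξ‖ ^ 2 = ‖ξ‖ ^ 2 := by
  have h : ((∑ i ∈ I, ‖e i ξ‖ ^ 2 : ℝ) : ℂ) = ((‖ξ‖ ^ 2 : ℝ) : ℂ) := by
    push_cast
    calc ∑ i ∈ I, ((‖e i ξ‖ : ℂ)) ^ 2 = ∑ i ∈ I, (inner ℂ (e i ξ) ξ : ℂ) := by
          refine Finset.sum_congr rfl fun i hi => ?_
          rw [proj_sq (he i hi)]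
          push_cast
          rfl
      _ = inner ℂ ((∑ i ∈ I, e i) ξ) ξ := by
          rw [← sum_inner, _root_.sum_apply]
      _ = inner ℂ ξ ξ := by rw [h1]; rfl
      _ = ((‖ξ‖ : ℂ)) ^ 2 := inner_self_eq_norm_sq_to_K ξ
  exact_mod_cast h

/-- a bounded sesquilinear estimate bounds the norm -/
lemma norm_le_of_inner {T : H →L[ℂ] H} {C : ℝ} (hC : 0 ≤ C)
    (h : ∀ ξ ζ : H, ‖inner ℂ (T ξ) ζ‖ ≤ C * ‖ξ‖ * ‖ζ‖) : ‖T‖ ≤ C := by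
  refine T.opNorm_le_bound hC fun ξ => ?_
  by_cases h0 : T ξ = 0
  · rw [h0, norm_zero]
    positivity
  have h1 := h ξ (T ξ)
  have h2 : ‖inner ℂ (T ξ) (T ξ)‖ = ‖T ξ‖ * ‖T ξ‖ := by
    rw [inner_self_eq_norm_sq_to_K, norm_pow]
    simp [sq]
  rw [h2] at h1
  exact le_of_mul_le_mul_right h1 (norm_pos_iff.2 h0)

lemma pinch_bound {ι : Type*} {I : Finset ι} {e : ι → H →L[ℂ] H}
    (he : ∀ i ∈ I, IsStarProjection (e i)) (h1 : ∑ i ∈ I, e i = 1) (x : H →L[ℂ] H) :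
    ‖∑ i ∈ I, e i * x * e i‖ ≤ ‖x‖ := by
  refine norm_le_of_inner (norm_nonneg x) fun ξ ζ => ?_
  have h2 : inner ℂ ((∑ i ∈ I, e i * x * e i) ξ) ζ = ∑ i ∈ I, inner ℂ (x (e i ξ)) (e i ζ) := by
    rw [_root_.sum_apply, sum_inner]
    refine Finset.sum_congr rfl fun i hi => ?_
    exact proj_inner (he i hi) _ _
  rw [h2]
  calc ‖∑ i ∈ I, inner ℂ (x (e i ξ)) (e i ζ)‖ ≤ ∑ i ∈ I, ‖inner ℂ (x (e i ξ)) (e i ζ)‖ :=
        norm_sum_le _ _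
    _ ≤ ∑ i ∈ I, ‖x‖ * (‖e i ξ‖ * ‖e i ζ‖) := by
        refine Finset.sum_le_sum fun i _ => ?_
        calc ‖inner ℂ (x (e i ξ)) (e i ζ)‖ ≤ ‖x (e i ξ)‖ * ‖e i ζ‖ := norm_inner_le_norm _ _
          _ ≤ (‖x‖ * ‖e i ξ‖) * ‖e i ζ‖ :=
              mul_le_mul_of_nonneg_right (x.le_opNorm _) (norm_nonneg _)
          _ = ‖x‖ * (‖e i ξ‖ * ‖e i ζ‖) := by ring
    _ = ‖x‖ * ∑ i ∈ I, ‖e i ξ‖ * ‖e i ζ‖ := by rw [Finset.mul_sum]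
    _ ≤ ‖x‖ * (√(∑ i ∈ I, ‖e i ξ‖ ^ 2) * √(∑ i ∈ I, ‖e i ζ‖ ^ 2)) :=
        mul_le_mul_of_nonneg_left (Real.sum_mul_le_sqrt_mul_sqrt _ _ _) (norm_nonneg _)
    _ = ‖x‖ * ‖ξ‖ * ‖ζ‖ := by
        rw [sum_sq he h1, sum_sq he h1, Real.sqrt_sq (norm_nonneg _), Real.sqrt_sq (norm_nonneg _)]
        ring

/-- bounded complex families converge along ultrafilters -/
lemma ultra_lim {ι : Type*} (U : Ultrafilter ι) {f : ι → ℂ} {R : ℝ} (hf : ∀ i, ‖f i‖ ≤ R) :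
    ∃ l, Tendsto f U (𝓝 l) ∧ ‖l‖ ≤ R := by
  have hK := isCompact_closedBall (0 : ℂ) R
  have hU : Metric.closedBall (0 : ℂ) R ∈ (U.map f : Filter ℂ) := by
    refine Filter.mem_map.2 (Filter.univ_mem' fun i => ?_)
    simpa [mem_closedBall_zero_iff] using hf i
  obtain ⟨l, hl, hle⟩ := hK.ultrafilter_le_nhds (U.map f) (le_principal_iff.2 hU)
  exact ⟨l, hle, by simpa [mem_closedBall_zero_iff] using hl⟩

/-- weak operator limits of bounded families -/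
theorem wot_lim {ι : Type*} (U : Ultrafilter ι) {T : ι → H →L[ℂ] H} {C : ℝ}
    (hT : ∀ i, ‖T i‖ ≤ C) : ∃ a : H →L[ℂ] H, ‖a‖ ≤ C ∧
      ∀ ξ ζ : H, Tendsto (fun i => inner ℂ (T i ξ) ζ) U (𝓝 (inner ℂ (a ξ) ζ)) := by
  have hC : 0 ≤ C := by
    obtain ⟨i⟩ : Nonempty ι := U.neBot.nonempty
    exact (norm_nonneg _).trans (hT i)
  have hb : ∀ (ξ ζ : H) (i : ι), ‖inner ℂ (T i ξ) ζ‖ ≤ C * ‖ξ‖ * ‖ζ‖ := fun ξ ζ i =>
    (norm_inner_le_norm _ _).trans (mul_le_mul_of_nonneg_right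
      ((T i).le_of_opNorm_le (hT i) ξ) (norm_nonneg _))
  choose L hL hLb using fun ξ ζ => ultra_lim U (hb ξ ζ)
  have add1 : ∀ ξ ξ' ζ, L (ξ + ξ') ζ = L ξ ζ + L ξ' ζ := fun ξ ξ' ζ =>
    tendsto_nhds_unique (hL _ _) (((hL ξ ζ).add (hL ξ' ζ)).congr fun i => by
      rw [map_add, inner_add_left])
  have smul1 : ∀ (c : ℂ) ξ ζ, L (c • ξ) ζ = starRingEnd ℂ c * L ξ ζ := fun c ξ ζ =>
    tendsto_nhds_unique (hL _ _) (((hL ξ ζ).const_mul (starRingEnd ℂ c)).congr fun i => by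
      rw [map_smul, inner_smul_left])
  have add2 : ∀ ξ ζ ζ', L ξ (ζ + ζ') = L ξ ζ + L ξ ζ' := fun ξ ζ ζ' =>
    tendsto_nhds_unique (hL _ _) (((hL ξ ζ).add (hL ξ ζ')).congr fun i => by
      rw [inner_add_right])
  have smul2 : ∀ (c : ℂ) ξ ζ, L ξ (c • ζ) = c * L ξ ζ := fun c ξ ζ =>
    tendsto_nhds_unique (hL _ _) (((hL ξ ζ).const_mul c).congr fun i => by
      rw [inner_smul_right])
  let B₀ : H →ₗ⋆[ℂ] H →ₗ[ℂ] ℂ := LinearMap.mk₂'ₛₗ (starRingEnd ℂ) (RingHom.id ℂ) L add1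
    (fun c ξ ζ => by rw [smul1]; rfl) add2 (fun c ξ ζ => by rw [smul2]; rfl)
  let B : H →L⋆[ℂ] H →L[ℂ] ℂ := LinearMap.mkContinuous₂ B₀ C fun ξ ζ => hLb ξ ζ
  have hB : ∀ ξ ζ, B ξ ζ = L ξ ζ := fun ξ ζ => rfl
  refine ⟨InnerProductSpace.continuousLinearMapOfBilin B, ?_, ?_⟩
  · refine norm_le_of_inner hC fun ξ ζ => ?_
    rw [InnerProductSpace.continuousLinearMapOfBilin_apply, hB]
    exact hLb ξ ζ
  · intro ξ ζ
    rw [InnerProductSpace.continuousLinearMapOfBilin_apply, hB]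
    exact hL ξ ζ

end Vale.Agent.P078
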